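import Crest.Agent.R165.CA.Base

/-! # R165 block CA: the sign condition from distributional subharmonicity (owner helper35) -/

set_option autoImplicit false
set_option linter.unusedVariables false
noncomputable section
open Classical Filter Topology Set Metric

namespace Crest.Agent.R165

theorem suba_lap {θ : ℝ → ℝ} (hθ : ContDiff ℝ (⊤ : ℕ∞) θ) (ζ z : ℂ) :
    Laplacian.laplacian (fun z => θ (‖z - ζ‖ ^ 2)) z =
      4 * (deriv θ (‖z - ζ‖ ^ 2) + ‖z - ζ‖ ^ 2 * deriv (deriv θ) (‖z - ζ‖ ^ 2)) := by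
  have h0 : ∀ y : ℂ, HasFDerivAt (fun z : ℂ => ‖z - ζ‖ ^ 2) (2 • innerSL ℝ (y - ζ)) y := fun y => by
    simpa using ((hasFDerivAt_id y).sub_const ζ).norm_sq
  have hθ' := (contDiff_infty_iff_deriv.1 hθ).2
  have h1 : fderiv ℝ (fun z => θ (‖z - ζ‖ ^ 2)) = fun y => deriv θ (‖y - ζ‖ ^ 2) • (2 • innerSL ℝ (y - ζ)) :=
    funext fun y => ((hθ.differentiable (by simp) _).hasDerivAt.comp_hasFDerivAt y (h0 y)).fderiv
  have h2 : HasFDerivAt (fun y : ℂ => (2 • innerSL ℝ (y - ζ) : ℂ →L[ℝ] ℝ)) (2 • (innerSL ℝ : ℂ →L[ℝ] ℂ →L[ℝ] ℝ)) z := by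
    exact (((innerSL ℝ : ℂ →L[ℝ] ℂ →L[ℝ] ℝ).hasFDerivAt).comp z ((hasFDerivAt_id z).sub_const ζ)).const_smul 2
  have h3 := (((hθ'.differentiable (by simp) _).hasDerivAt.comp_hasFDerivAt z (h0 z)).smul h2).fderiv
  rw [InnerProductSpace.laplacian_eq_iteratedFDeriv_complexPlane]
  simp only [iteratedFDeriv_two_apply, h1]
  erw [h3]
  have e1 : (innerSL ℝ : ℂ →L[ℝ] ℂ →L[ℝ] ℝ) 1 1 = 1 := by
    change inner ℝ (1 : ℂ) 1 = (1 : ℝ)
    simp
  have e2 : (innerSL ℝ : ℂ →L[ℝ] ℂ →L[ℝ] ℝ) Complex.I Complex.I = 1 := by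
    change inner ℝ Complex.I Complex.I = (1 : ℝ)
    simp
  simp [Complex.sq_norm, Complex.normSq_apply, e1, e2]
  ring

/-- Radial test functions.  `χ = smoothTransition (· - 1)`, `k s = (χ (s / ε²) - χ (s / a²)) / s` is smooth on `ℝ` (it vanishes for
`s ≤ ε²` and for `s ≥ 2 a²`) and `≥ 0`; `θ s = ∫ t in s..2 a², k t`, `η z = θ (‖z - ζ‖²)` (write `‖z - ζ‖² = normSq`, or
`(z.re - ζ.re)² + (z.im - ζ.im)²`); `Δ η = 4 (θ' + s θ'') = 4 (s θ')'` (`laplacian_eq_iteratedFDeriv_complexPlane`,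
`iteratedFDeriv_two_apply`). -/
theorem exists_radial (ζ : ℂ) {ε a : ℝ} (hε : 0 < ε) (hεa : ε ≤ a) : ∃ η : ℂ → ℝ, ContDiff ℝ (⊤ : ℕ∞) η ∧
    tsupport η ⊆ closedBall ζ (2 * a) ∧ (∀ z, 0 ≤ η z) ∧ ∀ z, Laplacian.laplacian η z =
      4 * (deriv Real.smoothTransition (‖z - ζ‖ ^ 2 / a ^ 2 - 1) / a ^ 2 -
        deriv Real.smoothTransition (‖z - ζ‖ ^ 2 / ε ^ 2 - 1) / ε ^ 2) := by
  have ha : 0 < a := hε.trans_le hεa
  have hsq : ε ^ 2 ≤ a ^ 2 := by gcongr
  have hε2 : 0 < ε ^ 2 := by positivity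
  have ha2 : 0 < a ^ 2 := by positivity
  obtain ⟨g, hg⟩ : ∃ g : ℝ → ℝ, g = fun s => Real.smoothTransition (s / ε ^ 2 - 1) - Real.smoothTransition (s / a ^ 2 - 1) :=
    ⟨_, rfl⟩
  have hgc : ContDiff ℝ (⊤ : ℕ∞) g := by
    rw [hg]
    exact (Real.smoothTransition.contDiff.comp (by fun_prop)).sub (Real.smoothTransition.contDiff.comp (by fun_prop))
  have hg0 : ∀ s, s ≤ ε ^ 2 → g s = 0 := fun s hs => by
    rw [hg]
    simp only
    rw [Real.smoothTransition.zero_of_nonpos, Real.smoothTransition.zero_of_nonpos, sub_zero]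
    · rw [sub_nonpos, div_le_one ha2]; linarith
    · rw [sub_nonpos, div_le_one hε2]; exact hs
  have hg1 : ∀ s, 2 * a ^ 2 ≤ s → g s = 0 := fun s hs => by
    rw [hg]
    simp only
    rw [Real.smoothTransition.one_of_one_le, Real.smoothTransition.one_of_one_le, sub_self]
    · rw [le_sub_iff_add_le, le_div_iff₀ ha2]; linarith
    · rw [le_sub_iff_add_le, le_div_iff₀ hε2]; linarith
  have hgn : ∀ s, 0 ≤ g s / s := fun s => by
    rcases le_or_gt s 0 with h | h
    · rw [hg0 s (h.trans hε2.le), zero_div]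
    · refine div_nonneg ?_ h.le
      rw [hg]
      refine sub_nonneg.2 (Real.smoothTransition.monotone ?_)
      gcongr
  have hk : ContDiff ℝ (⊤ : ℕ∞) fun s => g s / s := by
    refine contDiff_iff_contDiffAt.2 fun s => ?_
    by_cases h : s = 0
    · refine (contDiffAt_const (c := (0 : ℝ))).congr_of_eventuallyEq ?_
      filter_upwards [Iio_mem_nhds (h ▸ hε2 : s < ε ^ 2)] with t ht
      rw [hg0 t (le_of_lt ht), zero_div]
    · exact hgc.contDiffAt.div contDiffAt_id h
  obtain ⟨θ, hθ⟩ : ∃ θ : ℝ → ℝ, θ = fun s => ∫ t in s..2 * a ^ 2, g t / t := ⟨_, rfl⟩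
  have hd : ∀ s, HasDerivAt θ (-(g s / s)) s := fun s => by
    rw [hθ]
    exact intervalIntegral.integral_hasDerivAt_left (hk.continuous.intervalIntegrable _ _)
      (hk.continuous.stronglyMeasurableAtFilter _ _) hk.continuous.continuousAt
  have hd' : deriv θ = fun s => -(g s / s) := funext fun s => (hd s).deriv
  have hθc : ContDiff ℝ (⊤ : ℕ∞) θ := contDiff_infty_iff_deriv.2 ⟨fun s => (hd s).differentiableAt, hd' ▸ hk.neg⟩
  have hθ0 : ∀ s, 2 * a ^ 2 ≤ s → θ s = 0 := fun s hs => by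
    rw [hθ]
    refine (intervalIntegral.integral_congr (g := fun _ => 0) fun t ht => ?_).trans intervalIntegral.integral_zero
    rw [uIcc_of_ge hs] at ht
    simp only [hg1 t ht.1, zero_div]
  refine ⟨fun z => θ (‖z - ζ‖ ^ 2), hθc.comp ((contDiff_norm_sq ℝ).comp (by fun_prop)), ?_, fun z => ?_, fun z => ?_⟩
  · refine closure_minimal (fun z hz => ?_) isClosed_closedBall
    by_contra h
    rw [mem_closedBall, dist_eq_norm, not_le] at h
    exact hz (hθ0 _ (by nlinarith))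
  · rcases le_total (‖z - ζ‖ ^ 2) (2 * a ^ 2) with h | h
    · rw [hθ]
      exact intervalIntegral.integral_nonneg h fun t _ => hgn t
    · exact (hθ0 _ h).ge
  · rw [suba_lap hθc]
    generalize ‖z - ζ‖ ^ 2 = s
    have h1 : HasDerivAt (fun s => s * deriv θ s) (1 * deriv θ s + s * deriv (deriv θ) s) s :=
      (hasDerivAt_id' s).mul ((hd' ▸ hk.neg).differentiable (by simp) s).hasDerivAt
    have h2 : (fun s => s * deriv θ s) = fun s => Real.smoothTransition (s / a ^ 2 - 1) -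
        Real.smoothTransition (s / ε ^ 2 - 1) := by
      funext t
      rw [hd']
      by_cases h : t = 0
      · have := hg0 t (h ▸ hε2.le)
        rw [hg] at this
        simp only at this
        rw [← neg_sub, this, h, zero_mul, neg_zero]
      · rw [hg]
        field_simp
        ring
    have h3 : ∀ c : ℝ, HasDerivAt (fun s => Real.smoothTransition (s / c - 1))
        (deriv Real.smoothTransition (s / c - 1) / c) s := fun c => by
      have := ((Real.smoothTransition.contDiff (n := 1)).differentiable (by simp) (s / c - 1)).hasDerivAt.comp s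
        (((hasDerivAt_id' s).div_const c).sub_const 1)
      rw [one_div, ← div_eq_mul_inv] at this
      exact this
    rw [h2] at h1
    rw [← h1.unique ((h3 _).sub (h3 _)), one_mul]

theorem h87_chi_cont : Continuous (deriv Real.smoothTransition) :=
  (Real.smoothTransition.contDiff (n := 1)).continuous_deriv le_rfl

theorem h87_chi_nonneg (s : ℝ) : 0 ≤ deriv Real.smoothTransition s := Real.smoothTransition.monotone.deriv_nonneg

theorem h87_chi_hi {s : ℝ} (hs : 1 < s) : deriv Real.smoothTransition s = 0 := by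
  have : Real.smoothTransition =ᶠ[𝓝 s] fun _ => 1 := by
    filter_upwards [Ioi_mem_nhds hs] with t ht using Real.smoothTransition.one_of_one_le (le_of_lt ht)
  rw [this.deriv_eq, deriv_const]

theorem h87_chi_lo {s : ℝ} (hs : s < 0) : deriv Real.smoothTransition s = 0 := by
  have : Real.smoothTransition =ᶠ[𝓝 s] fun _ => 0 := by
    filter_upwards [Iio_mem_nhds hs] with t ht using Real.smoothTransition.zero_of_nonpos (le_of_lt ht)
  rw [this.deriv_eq, deriv_const]

theorem h87_chi_bdd : ∃ B : ℝ, 0 ≤ B ∧ ∀ s, deriv Real.smoothTransition s ≤ B := by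
  obtain ⟨B, hB⟩ := (isCompact_Icc (a := (0 : ℝ)) (b := 1)).bddAbove_image h87_chi_cont.continuousOn
  have h0 : 0 ≤ B := (h87_chi_nonneg 0).trans (hB ⟨0, by simp, rfl⟩)
  refine ⟨B, h0, fun s => ?_⟩
  rcases lt_or_ge s 0 with h | h
  · rw [h87_chi_lo h]; exact h0
  rcases lt_or_ge 1 s with h' | h'
  · rw [h87_chi_hi h']; exact h0
  exact hB ⟨s, ⟨h, h'⟩, rfl⟩

theorem h87_chi_pos : ∃ s ∈ Ioo (0 : ℝ) 1, 0 < deriv Real.smoothTransition s := by
  obtain ⟨s, hs, h⟩ := exists_deriv_eq_slope Real.smoothTransition zero_lt_one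
    Real.smoothTransition.continuous.continuousOn
    ((Real.smoothTransition.contDiff (n := 1)).differentiable one_ne_zero).differentiableOn
  refine ⟨s, hs, ?_⟩
  rw [h, Real.smoothTransition.one, Real.smoothTransition.zero]
  norm_num

/-- the radial kernel -/
def h87K (ζ : ℂ) (b : ℝ) (z : ℂ) : ℝ := deriv Real.smoothTransition (‖z - ζ‖ ^ 2 / b ^ 2 - 1)

theorem h87K_cont (ζ : ℂ) (b : ℝ) : Continuous (h87K ζ b) :=
  h87_chi_cont.comp (by fun_prop)

theorem h87K_zero {ζ : ℂ} {b : ℝ} (hb : 0 < b) {z : ℂ} (hz : z ∉ ball ζ (2 * b)) : h87K ζ b z = 0 := by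
  apply h87_chi_hi
  rw [mem_ball, dist_eq_norm, not_lt] at hz
  have h1 : (2 * b) ^ 2 ≤ ‖z - ζ‖ ^ 2 := pow_le_pow_left₀ (by positivity) hz 2
  rw [lt_sub_iff_add_lt, lt_div_iff₀ (by positivity)]
  nlinarith [sq_pos_of_pos hb]

/-- Suppose `h < 0` on `D ∩ ball ζ r''`.  Fix `a` small (`3 a < r''`, `2 a < ρ`).  With `χ' = deriv smoothTransition ≥ 0` (bounded, zero outside
`[0, 1]`, positive at some `s₀ ∈ (0, 1)` by the mean value theorem): `A = ∫_D h χ'(‖z - ζ‖² / a² - 1) < 0` (the integrand is `≤ 0`, and `< 0` near the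
point `ζ + a √(1 + s₀) ν` of the interior ball), while `|∫_D h χ'(‖z - ζ‖² / ε² - 1) / ε²| ≤ C (2 ε) B / ε² · π (2 ε)²`
(`infDist z Dᶜ ≤ ‖z - ζ‖`); `exists_radial`, `ε → 0`. -/
theorem not_neg_near' {D : Set ℂ} (hD : Nice D) {ζ : ℂ} (hζ : ζ ∈ frontier D) {r : ℝ} (hr : 0 < r) {h : ℂ → ℝ}
    (hc : ContinuousOn h (D ∩ Metric.ball ζ r)) (hb : ∃ C, ∀ z ∈ D ∩ Metric.ball ζ r, |h z| ≤ C * Metric.infDist z Dᶜ)
    (hs : ∀ η : ℂ → ℝ, ContDiff ℝ (⊤ : ℕ∞) η → tsupport η ⊆ Metric.ball ζ r → HasCompactSupport η → (∀ z, 0 ≤ η z) →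
      0 ≤ ∫ z in D, h z * Laplacian.laplacian η z) :
    ∀ r' > 0, ∃ z ∈ D, dist z ζ < r' ∧ dist z ζ < r ∧ 0 ≤ h z := by
  intro r' hr'
  by_contra hcon
  have hneg : ∀ z ∈ D, dist z ζ < r' → dist z ζ < r → h z < 0 := fun z hz h1 h2 =>
    not_le.1 fun h3 => hcon ⟨z, hz, h1, h2, h3⟩
  obtain ⟨ρ, hρ, hballs⟩ := hD.balls
  obtain ⟨ν, hν, hin, -⟩ := hballs ζ hζ
  obtain ⟨C₀, hC₀⟩ := hb
  have hζD : ζ ∈ Dᶜ := by
    rw [hD.isOpen.frontier_eq] at hζ
    exact hζ.2
  set E := D ∩ ball ζ r with hE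
  have hEo : IsOpen E := hD.isOpen.inter isOpen_ball
  have hEf : MeasureTheory.volume E < ⊤ :=
    lt_of_le_of_lt (MeasureTheory.measure_mono inter_subset_right) MeasureTheory.measure_ball_lt_top
  have hC : ∀ z ∈ E, |h z| ≤ |C₀| * dist z ζ := fun z hz =>
    (hC₀ z hz).trans ((mul_le_mul_of_nonneg_right (le_abs_self _) infDist_nonneg).trans
      (mul_le_mul_of_nonneg_left (infDist_le_dist_of_mem hζD) (abs_nonneg _)))
  obtain ⟨B, hB0, hB⟩ := h87_chi_bdd
  obtain ⟨s₀, hs₀, hpos⟩ := h87_chi_pos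
  have hKB : ∀ b z, |h87K ζ b z| ≤ B := fun b z => by
    unfold h87K
    rw [abs_of_nonneg (h87_chi_nonneg _)]
    exact hB _
  have hcK : ∀ b, ContinuousOn (fun z => h z * h87K ζ b z) E := fun b => hc.mul (h87K_cont ζ b).continuousOn
  have hint : ∀ b, MeasureTheory.IntegrableOn (fun z => h z * h87K ζ b z) E := fun b => by
    refine MeasureTheory.IntegrableOn.of_bound hEf ((hcK b).aestronglyMeasurable hEo.measurableSet) (|C₀| * r * B) ?_
    refine (MeasureTheory.ae_restrict_iff' hEo.measurableSet).2 (Eventually.of_forall fun z hz => ?_)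
    rw [Real.norm_eq_abs, abs_mul]
    refine mul_le_mul ((hC z hz).trans ?_) (hKB b z) (abs_nonneg _) (by positivity)
    exact mul_le_mul_of_nonneg_left (le_of_lt hz.2) (abs_nonneg _)
  obtain ⟨a, ha, har, har', haρ⟩ : ∃ a : ℝ, 0 < a ∧ 2 * a < r ∧ 2 * a < r' ∧ a ≤ ρ := by
    refine ⟨min (min (r / 3) (r' / 3)) ρ, by positivity, ?_, ?_, min_le_right _ _⟩
    · have := (min_le_left (min (r / 3) (r' / 3)) ρ).trans (min_le_left _ _)
      linarith
    · have := (min_le_left (min (r / 3) (r' / 3)) ρ).trans (min_le_right _ _)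
      linarith
  -- the main term is negative
  have hA : 0 < ∫ z in E, -(h z * h87K ζ a z) := by
    have hnn : ∀ z ∈ E, 0 ≤ -(h z * h87K ζ a z) := fun z hz => by
      by_cases hz' : z ∈ ball ζ (2 * a)
      · have h1 := hneg z hz.1 (lt_trans hz' har') hz.2
        have h2 : 0 ≤ h87K ζ a z := h87_chi_nonneg _
        nlinarith
      · rw [h87K_zero ha hz']; simp
    rw [MeasureTheory.setIntegral_pos_iff_support_of_nonneg_ae
      ((MeasureTheory.ae_restrict_iff' hEo.measurableSet).2 (Eventually.of_forall hnn)) (hint a).neg]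
    have hop : IsOpen (Function.support (fun z => -(h z * h87K ζ a z)) ∩ E) := by
      rw [inter_comm]
      exact (hcK a).neg.isOpen_inter_preimage hEo (isOpen_compl_singleton (x := (0 : ℝ)))
    refine hop.measure_pos _ ⟨ζ + ((a * √(1 + s₀) : ℝ) : ℂ) * ν, ?_⟩
    have hq0 : 0 < √(1 + s₀) := Real.sqrt_pos.2 (by linarith [hs₀.1])
    have hq1 : √(1 + s₀) ^ 2 = 1 + s₀ := Real.sq_sqrt (by linarith [hs₀.1])
    have hq2 : √(1 + s₀) < 2 := by
      rw [Real.sqrt_lt' two_pos]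
      linarith [hs₀.2]
    have hn : ‖ζ + ((a * √(1 + s₀) : ℝ) : ℂ) * ν - ζ‖ = a * √(1 + s₀) := by
      rw [add_sub_cancel_left, norm_mul, hν, mul_one, Complex.norm_real, Real.norm_eq_abs, abs_of_pos (by positivity)]
    have hlt : a * √(1 + s₀) < 2 * a := by nlinarith
    have hpD : ζ + ((a * √(1 + s₀) : ℝ) : ℂ) * ν ∈ D := by
      apply hin
      rw [mem_ball, dist_eq_norm]
      have : ζ + ((a * √(1 + s₀) : ℝ) : ℂ) * ν - (ζ + ρ * ν) = ((a * √(1 + s₀) - ρ : ℝ) : ℂ) * ν := by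
        push_cast; ring
      rw [this, norm_mul, hν, mul_one, Complex.norm_real, Real.norm_eq_abs, abs_lt]
      constructor
      · have : 0 < a * √(1 + s₀) := by positivity
        linarith
      · linarith
    have hd : dist (ζ + ((a * √(1 + s₀) : ℝ) : ℂ) * ν) ζ = a * √(1 + s₀) := by rw [dist_eq_norm, hn]
    refine ⟨?_, hpD, ?_⟩
    · have h1 := hneg _ hpD (by rw [hd]; linarith) (by rw [hd]; linarith)
      have h2 : h87K ζ a (ζ + ((a * √(1 + s₀) : ℝ) : ℂ) * ν) = deriv Real.smoothTransition s₀ := by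
        unfold h87K
        rw [hn, mul_pow, hq1]
        congr 1
        field_simp
        ring
      rw [Function.mem_support, h2]
      nlinarith
    · rw [mem_ball, hd]; linarith
  rw [MeasureTheory.integral_neg] at hA
  set A := ∫ z in E, h z * h87K ζ a z with hAdef
  -- the small term
  have hsmall : ∀ ε, 0 < ε → |∫ z in E, h z * h87K ζ ε z| ≤ |C₀| * (2 * ε) * B * ((2 * ε) ^ 2 * Real.pi) := by
    intro ε hε
    rw [MeasureTheory.setIntegral_eq_of_subset_of_forall_sdiff_eq_zero (s := E ∩ ball ζ (2 * ε)) hEo.measurableSet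
      inter_subset_left (fun z hz => by
        rw [h87K_zero hε fun hz' => hz.2 ⟨hz.1, hz'⟩, mul_zero])]
    have h1 := MeasureTheory.norm_setIntegral_le_of_norm_le_const (μ := MeasureTheory.volume)
      (s := E ∩ ball ζ (2 * ε)) (f := fun z => h z * h87K ζ ε z) (C := |C₀| * (2 * ε) * B)
      (lt_of_le_of_lt (MeasureTheory.measure_mono inter_subset_left) hEf) (fun z hz => by
        rw [Real.norm_eq_abs, abs_mul]
        refine mul_le_mul ((hC z hz.1).trans ?_) (hKB ε z) (abs_nonneg _) (by positivity)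
        exact mul_le_mul_of_nonneg_left (le_of_lt hz.2) (abs_nonneg _))
    refine h1.trans (mul_le_mul_of_nonneg_left ?_ (by positivity))
    refine (MeasureTheory.measureReal_mono inter_subset_right MeasureTheory.measure_ball_lt_top.ne).trans (le_of_eq ?_)
    rw [MeasureTheory.Measure.real, Complex.volume_ball, ENNReal.toReal_mul, ENNReal.toReal_pow,
      ENNReal.toReal_ofReal (by positivity)]
    simp
  have key : ∀ ε, 0 < ε → ε ≤ a → 0 ≤ A / a ^ 2 + 8 * |C₀| * B * Real.pi * ε := by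
    intro ε hε hεa
    obtain ⟨η, h1, h2, h3, h4⟩ := exists_radial ζ hε hεa
    have h5 := hs η h1 (h2.trans (closedBall_subset_ball har))
      ((isCompact_closedBall ζ (2 * a)).of_isClosed_subset (isClosed_tsupport η) h2) h3
    have h6 : ∀ z, h z * Laplacian.laplacian η z =
        (4 / a ^ 2) * (h z * h87K ζ a z) - (4 / ε ^ 2) * (h z * h87K ζ ε z) := fun z => by
      rw [h4 z]
      unfold h87K
      ring
    simp only [h6] at h5
    rw [MeasureTheory.setIntegral_eq_of_subset_of_forall_sdiff_eq_zero (s := E) hD.isOpen.measurableSet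
      inter_subset_left (fun z hz => by
        have hz' : z ∉ ball ζ r := fun h' => hz.2 ⟨hz.1, h'⟩
        rw [h87K_zero ha fun h' => hz' (ball_subset_ball har.le h'),
          h87K_zero hε fun h' => hz' (ball_subset_ball (by linarith) h')]
        simp),
      MeasureTheory.integral_sub ((hint a).const_mul _) ((hint ε).const_mul _), MeasureTheory.integral_const_mul,
      MeasureTheory.integral_const_mul, ← hAdef] at h5
    have h7 := (abs_le.1 (hsmall ε hε)).1
    have h8 : -(4 / ε ^ 2 * ∫ z in E, h z * h87K ζ ε z) ≤ 4 * (8 * |C₀| * B * Real.pi * ε) := by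
      have h9 : 4 * (8 * |C₀| * B * Real.pi * ε) = 4 / ε ^ 2 * (|C₀| * (2 * ε) * B * ((2 * ε) ^ 2 * Real.pi)) := by
        field_simp
        ring
      rw [h9, ← mul_neg]
      exact mul_le_mul_of_nonneg_left (by linarith) (by positivity)
    have h10 : 4 / a ^ 2 * A = 4 * (A / a ^ 2) := by ring
    linarith
  have hM : 0 ≤ 8 * |C₀| * B * Real.pi := by positivity
  set M := 8 * |C₀| * B * Real.pi
  have hA' : 0 < -(A / a ^ 2) := by
    rw [← neg_div]
    positivity
  have h1 := key (min a (-(A / a ^ 2) / (M + 1))) (by positivity) (min_le_left _ _)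
  have h2 : M * min a (-(A / a ^ 2) / (M + 1)) ≤ M * (-(A / a ^ 2) / (M + 1)) :=
    mul_le_mul_of_nonneg_left (min_le_right _ _) hM
  have h3 : M * (-(A / a ^ 2) / (M + 1)) < -(A / a ^ 2) := by
    rw [← mul_div_assoc, div_lt_iff₀ (by positivity)]
    nlinarith
  linarith

end Crest.Agent.R165
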