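import Crest.Agent.R165.CA.Pull
import Crest.Agent.R165.CA.Sub

/-! # R165 block CA: the continuum Riemann–Hilbert problem (pure complex analysis)
(OWNER fills the sorries; statements FROZEN). Recipes: notes165/route.md §CA. -/

set_option autoImplicit false
set_option linter.unusedVariables false
noncomputable section
open Classical Filter Topology

namespace Crest.Agent.R165

/-- **uniqueness in linear form.** A real combination of RH solutions whose poles at `y` cancel and whose coefficient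
at every branch point is purely imaginary vanishes. (`hc`: the combination satisfies `BrOK`; this is automatic at the
points where all members satisfy `BrOK`, see `brOK_sum`.) -/
theorem rh_unique {D : Set ℂ} {n m : ℕ} (hD : NiceP D n) {x : Fin n → ℂ} (hx : Function.Injective x)
    (hxD : ∀ i, x i ∈ D) (y : ℂ) (hy : y ∈ D) (hyx : ∀ i, y ≠ x i) (t : Fin m → ℝ) (g : Fin m → ℂ → ℂ)
    (hg : ∀ k, RH D x {y} (g k)) (hc : ∀ i, BrOK x (fun z => ∑ k, (t k : ℂ) * g k z) i)
    (hp : Tendsto (fun z => (z - y) * ∑ k, (t k : ℂ) * g k z) (𝓝[≠] y) (𝓝 0)) :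
    ∀ z ∈ D, z ≠ y → ∑ k, (t k : ℂ) * g k z = 0 := by
  rcases hD with hD | ⟨rfl, hn⟩
  swap
  · exact fun z _ hz => rh_unique_plane hn hx y hyx t g hg hc hp z hz
  obtain ⟨a, ψ, ha1, ha2, hψ1, hψ2, hψa, haψ, hsg⟩ := hD.riem'
  have hx' : Function.Injective fun i => a (x i) := fun i k e => hx (ha2.injOn (hxD i) (hxD k) e)
  have hxB : ∀ i, a (x i) ∈ Metric.ball (0 : ℂ) 1 := fun i => ha2.mapsTo (hxD i)
  have hyB := ha2.mapsTo hy
  have e1 : (fun i => ψ (a (x i))) = x := funext fun i => hψa _ (hxD i)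
  obtain ⟨u, hu1, hu2, hu3⟩ := factor_core Metric.isOpen_ball hasSq_ball hψ1 hψ2.injOn hxB
  have e2 : ∀ w, ∑ k, (t k : ℂ) * (u w * g k (ψ w)) = u w * ∑ k, (t k : ℂ) * g k (ψ w) := fun w => by
    rw [Finset.mul_sum]
    exact Finset.sum_congr rfl fun k _ => by ring
  have key := rh_unique_disc hx' hxB (a y) hyB (fun i e => hyx i (ha2.injOn hy (hxD i) e)) t
    (fun k w => u w * g k (ψ w)) (fun k => pull_core Metric.isOpen_ball Metric.isBounded_ball hD.bdd hψ1 hψ2 hxB hu1 hu3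
      (Set.singleton_subset_iff.2 hyB) (by rw [e1, Set.image_singleton, hψa y hy]; exact hg k)
      fun h _ _ h3 => hsg h h3) (fun i => ?_) ?_
  · intro z hz hzy
    have := key (a z) (ha2.mapsTo hz) fun e => hzy (ha2.injOn hz hy e)
    rw [e2, hψa z hz] at this
    exact (mul_eq_zero.1 this).resolve_left (hu2 _ (ha2.mapsTo hz))
  · have := pull_cSq Metric.isOpen_ball hψ1 hψ2.injOn hx' hxB hu1 hu3 (fun z => ∑ k, (t k : ℂ) * g k z) i
    simp only [e2]
    unfold BrOK
    rw [this, e1]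
    exact hc i
  · have hn := Metric.isOpen_ball.mem_nhds hyB
    have hψc : Tendsto ψ (𝓝 (a y)) (𝓝 y) := by
      have := (hψ1.continuousOn.continuousAt hn).tendsto
      rwa [hψa y hy] at this
    have h1 : Tendsto ψ (𝓝[≠] (a y)) (𝓝[≠] y) := by
      refine tendsto_nhdsWithin_iff.2 ⟨hψc.mono_left nhdsWithin_le_nhds, ?_⟩
      filter_upwards [self_mem_nhdsWithin, mem_nhdsWithin_of_mem_nhds hn] with w hw hw' e
      exact hw (by rw [← haψ w hw', Set.mem_singleton_iff.1 e]; rfl)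
    have h2 : Tendsto (fun w => u w * dslope a y (ψ w)) (𝓝[≠] (a y)) (𝓝 (u (a y) * dslope a y y)) :=
      ((hu1.continuousOn.continuousAt hn).tendsto.mul ((continuousAt_dslope_same.2
        (ha1.differentiableAt (hD.isOpen.mem_nhds hy))).tendsto.comp hψc)).mono_left nhdsWithin_le_nhds
    have h3 := h2.mul (hp.comp h1)
    rw [mul_zero] at h3
    refine h3.congr' ?_
    filter_upwards [mem_nhdsWithin_of_mem_nhds hn] with w hw
    have := sub_mul_dslope a y (ψ w)
    rw [haψ w hw] at this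
    rw [e2, ← this]
    simp only [Function.comp]
    ring

theorem prod_erase_ne {n : ℕ} {x : Fin n → ℂ} (hx : Function.Injective x) (i : Fin n) :
    ∏ k ∈ Finset.univ.erase i, (x i - x k) ≠ 0 :=
  Finset.prod_ne_zero_iff.2 fun _ hk => sub_ne_zero.2 fun h => (Finset.mem_erase.1 hk).1 (hx h).symm

theorem brOK_iff {n : ℕ} (x : Fin n → ℂ) (i : Fin n) :
    ∃ s : ℂ, ∀ g : ℂ → ℂ, BrOK x g i ↔ (s * g (x i)).im = 0 := by
  obtain ⟨s, hs⟩ := IsAlgClosed.exists_pow_nat_eq (-(∏ k ∈ Finset.univ.erase i, (x i - x k))⁻¹) two_pos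
  refine ⟨s, fun g => ?_⟩
  have e : cSq x g i = -(s * g (x i)) ^ 2 := by rw [mul_pow, hs, cSq]; ring
  unfold BrOK
  rw [e]
  generalize s * g (x i) = w
  simp only [sq, Complex.neg_im, Complex.neg_re, Complex.mul_im, Complex.mul_re]
  constructor
  · rintro ⟨h1, h2⟩
    by_contra h
    have h3 : w.re = 0 := by
      have : w.re * w.im = 0 := by linarith
      exact (mul_eq_zero.1 this).resolve_right h
    rw [h3] at h2
    exact h (mul_self_eq_zero.1 (le_antisymm (by linarith) (mul_self_nonneg _)))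
  · intro h
    rw [h]
    exact ⟨by ring, by nlinarith [mul_self_nonneg w.re]⟩

/-- `P = ∏ (x i - x k) ≠ 0`, `s² = -P⁻¹`; `BrOK x g i ↔ (s * g (x i)).im = 0` -/
theorem brOK_sum {n m : ℕ} {x : Fin n → ℂ} (hx : Function.Injective x) (t : Fin m → ℝ) (g : Fin m → ℂ → ℂ) (i : Fin n)
    (h : ∀ k, BrOK x (g k) i) : BrOK x (fun z => ∑ k, (t k : ℂ) * g k z) i := by
  obtain ⟨s, hs⟩ := brOK_iff x i
  simp only [hs] at h ⊢
  rw [Finset.mul_sum, Complex.im_sum]
  refine Finset.sum_eq_zero fun k _ => ?_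
  rw [mul_left_comm, Complex.im_ofReal_mul, h k, mul_zero]

theorem RH.sing {D : Set ℂ} {n : ℕ} {x : Fin n → ℂ} {g : ℂ → ℂ} (h : RH D x ∅ g) (y : ℂ) : RH D x {y} g := by
  obtain ⟨u, h1, h2⟩ := h.pot
  exact ⟨h.hol.mono fun z hz => ⟨hz.1, id⟩, ⟨u, fun z hz => h1 z ⟨hz.1, id⟩, h2⟩, h.inf⟩

/-- `g (x i) = ± g' (x i)`; `rh_unique` for `![g, g']`, `t = ![1, ∓1]` and any `y ∈ D` off the `x i` (`D` is open and infinite), `brOK_sum`;
continuity at `y`. -/
theorem rhbr_unique {D : Set ℂ} {n : ℕ} (hD : NiceP D n) {x : Fin n → ℂ} (hx : Function.Injective x)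
    (hxD : ∀ i, x i ∈ D) {i : Fin n} {g g' : ℂ → ℂ} (hg : RHbr D x i g) (hg' : RHbr D x i g') :
    ((∀ z ∈ D, g z = g' z) ∨ ∀ z ∈ D, g z = -g' z) ∧ coefA x i g = coefA x i g' := by
  have hop : IsOpen D := by
    rcases hD with h | ⟨rfl, -⟩
    exacts [h.isOpen, isOpen_univ]
  have hn := hop.mem_nhds (hxD i)
  have key : ∀ σ : ℝ, g (x i) = σ * g' (x i) → ∀ z ∈ D, g z = σ * g' z := fun σ hσ z hz => by
    obtain ⟨y, hy, hy'⟩ := ((infinite_of_mem_nhds _ hn).sdiff ((Set.finite_range x).insert z)).nonempty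
    simp only [Set.mem_insert_iff, Set.mem_range, not_or, not_exists] at hy'
    have := rh_unique hD hx hxD y hy (fun i e => hy'.2 i e.symm) ![1, -σ] ![g, g']
      (Fin.forall_fin_two.2 ⟨hg.1.sing y, hg'.1.sing y⟩) (fun k => ?_) ?_ z hz fun e => hy'.1 e.symm
    · simp only [Fin.sum_univ_two, Matrix.cons_val_zero, Matrix.cons_val_one] at this
      push_cast at this
      linear_combination this
    · by_cases hk : k = i
      · subst hk
        simp [BrOK, cSq, hσ]
      · exact brOK_sum hx _ _ k (Fin.forall_fin_two.2 ⟨hg.2.1 k hk, hg'.2.1 k hk⟩)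
    · have hy2 : D \ ∅ ∈ 𝓝 y := by simpa using hop.mem_nhds hy
      have h1 : ContinuousAt (fun z => (z - y) * ∑ k, ((![1, -σ] k : ℝ) : ℂ) * ![g, g'] k z) y := by
        simp only [Fin.sum_univ_two, Matrix.cons_val_zero, Matrix.cons_val_one]
        exact (continuousAt_id.sub continuousAt_const).mul
          ((continuousAt_const.mul (hg.1.hol.continuousOn.continuousAt hy2)).add
            (continuousAt_const.mul (hg'.1.hol.continuousOn.continuousAt hy2)))
      have h2 := h1.tendsto.mono_left (nhdsWithin_le_nhds (s := {y}ᶜ))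
      rwa [sub_self, zero_mul] at h2
  have hco : ∀ σ : ℝ, σ ≠ 0 → (∀ z ∈ D, g z = σ * g' z) → coefA x i g = coefA x i g' := fun σ h0 h => by
    have h1 : g =ᶠ[𝓝 (x i)] fun z => σ * g' z := by filter_upwards [hn] with z hz using h z hz
    unfold coefA
    rw [h1.deriv_eq, h _ (hxD i), deriv_const_mul_field', mul_div_mul_left _ _ (Complex.ofReal_ne_zero.2 h0)]
  have h1 : g (x i) ^ 2 = g' (x i) ^ 2 := by
    have := hg.2.2.trans hg'.2.2.symm
    unfold cSq at this
    exact (div_left_inj' (prod_erase_ne hx i)).1 this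
  rcases sq_eq_sq_iff_eq_or_eq_neg.1 h1 with h | h
  · have := key 1 (by simpa using h)
    exact ⟨Or.inl fun z hz => by simpa using this z hz, hco 1 one_ne_zero this⟩
  · have := key (-1) (by simpa using h)
    exact ⟨Or.inr fun z hz => by simpa using this z hz, hco (-1) (by norm_num) this⟩

/-- the conformal factor `√φ' · √(ρ / ρ' ∘ φ)` exists on a nice domain -/
theorem exists_factor {D D' : Set ℂ} (hD : Nice D) {φ : ℂ → ℂ} (hφ : DifferentiableOn ℂ φ D)
    (hb : Set.BijOn φ D D') {n : ℕ} {x : Fin n → ℂ} (hx : Function.Injective x) (hxD : ∀ i, x i ∈ D) :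
    ∃ u : ℂ → ℂ, DifferentiableOn ℂ u D ∧ (∀ z ∈ D, u z ≠ 0) ∧
      ∀ z ∈ D, u z ^ 2 * rhoX (fun i => φ (x i)) (φ z) = deriv φ z * rhoX x z := by
  exact factor_core hD.isOpen hD.hasSq hφ hb.injOn hxD

/-- **conformal covariance of the class** -/
theorem rh_pullback {D D' : Set ℂ} (hD : Nice D) (hD' : Nice D') {φ : ℂ → ℂ} (hφ : DifferentiableOn ℂ φ D)
    (hb : Set.BijOn φ D D') {n : ℕ} {x : Fin n → ℂ} (hx : Function.Injective x) (hxD : ∀ i, x i ∈ D)
    {u : ℂ → ℂ} (hu : DifferentiableOn ℂ u D)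
    (huu : ∀ z ∈ D, u z ^ 2 * rhoX (fun i => φ (x i)) (φ z) = deriv φ z * rhoX x z)
    {Y : Set ℂ} (hY : Y ⊆ D) (hYf : Y.Finite) {g : ℂ → ℂ} (hg : RH D' (fun i => φ (x i)) (φ '' Y) g) :
    RH D x Y (fun z => u z * g (φ z)) ∧
      ∀ i, x i ∉ Y → cSq x (fun z => u z * g (φ z)) i = cSq (fun i => φ (x i)) g i := by
  refine ⟨pull_core hD.isOpen hD.bdd hD'.bdd hφ hb hxD hu huu hY hg fun h h1 h2 h3 =>
    sgn_pull hD hD' hφ hb ((hYf.image φ).union (Set.finite_range _)) ?_ h1 h2 h3,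
    fun i _ => pull_cSq hD.isOpen hφ hb.injOn hx hxD hu huu g i⟩
  rintro _ (⟨y, hy, rfl⟩ | ⟨i, rfl⟩)
  · exact hb.mapsTo (hY hy)
  · exact hb.mapsTo (hxD i)

theorem deriv_deriv_dslope {D : Set ℂ} (hD : IsOpen D) {φ : ℂ → ℂ} (hφ : DifferentiableOn ℂ φ D) {a : ℂ} (ha : a ∈ D) :
    deriv (deriv φ) a = 2 * deriv (dslope φ a) a := by
  have hn := hD.mem_nhds ha
  have hd := (Complex.differentiableOn_dslope hn).2 hφ
  have h1 : deriv φ =ᶠ[𝓝 a] fun z => dslope φ a z + (z - a) * deriv (dslope φ a) z := by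
    filter_upwards [hn] with z hz
    have h2 := (((hasDerivAt_id z).sub_const a).mul (hd.differentiableAt (hD.mem_nhds hz)).hasDerivAt).add_const (φ a)
    have h3 : HasDerivAt φ (1 * dslope φ a z + (z - a) * deriv (dslope φ a) z) z := by
      refine h2.congr_of_eventuallyEq (Eventually.of_forall fun w => ?_)
      simp [sub_mul_dslope]
    rw [h3.deriv, one_mul]
  have h4 := (hd.differentiableAt hn).hasDerivAt.add
    (((hasDerivAt_id a).sub_const a).mul ((hd.deriv hD).differentiableAt hn).hasDerivAt)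
  rw [h1.deriv_eq]
  refine (HasDerivAt.deriv h4).trans ?_
  simp only [id, sub_self]
  ring

/-- `exists_factor`, `rh_pullback` (`Y = ∅`), `rhbr_unique`; logarithmic derivative of `factor_eq` at `x i` (`logDeriv_mul`, `logDeriv_prod`, or differentiate by hand);
`dslope φ a a = φ' a`, `deriv (dslope φ a) a = φ'' a / 2` (from `φ z - φ a = (z - a) * dslope φ a z`, `dslope` is holomorphic on `D`). -/
theorem coefA_pullback {D D' : Set ℂ} (hD : Nice D) (hD' : Nice D') {φ : ℂ → ℂ} (hφ : DifferentiableOn ℂ φ D)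
    (hb : Set.BijOn φ D D') {n : ℕ} {x : Fin n → ℂ} (hx : Function.Injective x) (hxD : ∀ i, x i ∈ D)
    {i : Fin n} {g g' : ℂ → ℂ} (hg : RHbr D x i g) (hg' : RHbr D' (fun i => φ (x i)) i g') :
    coefA x i g = deriv φ (x i) * coefA (fun i => φ (x i)) i g' +
      deriv (deriv φ) (x i) / (8 * deriv φ (x i)) := by
  obtain ⟨u, hu1, hu2, hu3⟩ := exists_factor hD hφ hb hx hxD
  obtain ⟨h1, h2⟩ := rh_pullback hD hD' hφ hb hx hxD hu1 hu3 (Set.empty_subset _) Set.finite_empty
    (g := g') (by rw [Set.image_empty]; exact hg'.1)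
  have hG : RHbr D x i fun z => u z * g' (φ z) :=
    ⟨h1, fun k hk => by unfold BrOK; rw [h2 k id]; exact hg'.2.1 k hk, (h2 i id).trans hg'.2.2⟩
  rw [(rhbr_unique (Or.inl hD) hx hxD hg hG).2]
  have hn := hD.isOpen.mem_nhds (hxD i)
  have hx' : Function.Injective fun i => φ (x i) := fun i k e => hx (hb.injOn (hxD i) (hxD k) e)
  have hφa := hφ.differentiableAt hn
  have hua := hu1.differentiableAt hn
  have hga : DifferentiableAt ℂ g' (φ (x i)) :=
    hg'.1.hol.differentiableAt (by simpa using hD'.isOpen.mem_nhds (hb.mapsTo (hxD i)))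
  have hg0 : g' (φ (x i)) ≠ 0 := fun e => by simpa [cSq, e] using hg'.2.2
  have hd := (Complex.differentiableOn_dslope hn).2 hφ
  have hda := hd.differentiableAt hn
  have hφ0 := Lib.RMT.deriv_ne_zero_of_injOn hD.isOpen hφ hb.injOn (hxD i)
  have hd0 : dslope φ (x i) (x i) ≠ 0 := by rwa [dslope_same]
  have hP := prod_erase_ne hx i
  have hQ := prod_erase_ne hx' i
  have hPd : DifferentiableAt ℂ (fun z => ∏ k ∈ Finset.univ.erase i, (z - x k)) (x i) := by fun_prop
  have hQd : DifferentiableAt ℂ (fun z => ∏ k ∈ Finset.univ.erase i, (φ z - φ (x k))) (x i) :=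
    DifferentiableAt.fun_finsetProd fun k _ => hφa.sub_const _
  have e1 : logDeriv (fun z => u z ^ 2 * (dslope φ (x i) z * ∏ k ∈ Finset.univ.erase i, (φ z - φ (x k)))) (x i) =
      logDeriv (fun z => deriv φ z * ∏ k ∈ Finset.univ.erase i, (z - x k)) (x i) := by
    refine (logDeriv_congr_nhds ?_).self_of_nhds
    filter_upwards [hn] with z hz using factor_eq hD.isOpen hφ hxD hu1 hu3 i z hz
  rw [logDeriv_mul (f := fun z => u z ^ 2)
      (g := fun z => dslope φ (x i) z * ∏ k ∈ Finset.univ.erase i, (φ z - φ (x k))) (x i)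
      (pow_ne_zero 2 (hu2 _ (hxD i))) (mul_ne_zero hd0 hQ) (hua.pow 2) (hda.mul hQd),
    logDeriv_mul (g := fun z => ∏ k ∈ Finset.univ.erase i, (φ z - φ (x k))) (x i) hd0 hQ hda hQd,
    logDeriv_mul (g := fun z => ∏ k ∈ Finset.univ.erase i, (z - x k)) (x i) hφ0 hP
      ((hφ.deriv hD.isOpen).differentiableAt hn) hPd,
    logDeriv_fun_pow hua,
    logDeriv_prod (f := fun k z => φ z - φ (x k)) (Finset.prod_ne_zero_iff.1 hQ) fun k _ => hφa.sub_const _,
    logDeriv_prod (f := fun k z => z - x k) (Finset.prod_ne_zero_iff.1 hP) fun k _ => by fun_prop] at e1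
  have e2 : ∑ k ∈ Finset.univ.erase i, logDeriv (fun z => φ z - φ (x k)) (x i) =
      deriv φ (x i) * ∑ k ∈ Finset.univ.erase i, (φ (x i) - φ (x k))⁻¹ := by
    rw [Finset.mul_sum]
    exact Finset.sum_congr rfl fun k _ => by rw [logDeriv_apply, deriv_sub_const, div_eq_mul_inv]
  have e3 : ∑ k ∈ Finset.univ.erase i, logDeriv (fun z => z - x k) (x i) = ∑ k ∈ Finset.univ.erase i, (x i - x k)⁻¹ :=
    Finset.sum_congr rfl fun k _ => by rw [logDeriv_apply, deriv_sub_const, deriv_id'', one_div]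
  have e4 : deriv (fun z => u z * g' (φ z)) (x i) / (u (x i) * g' (φ (x i))) =
      logDeriv u (x i) + deriv g' (φ (x i)) / g' (φ (x i)) * deriv φ (x i) := by
    rw [← logDeriv_apply g', ← logDeriv_comp hga hφa]
    exact logDeriv_mul (x i) (hu2 _ (hxD i)) hg0 hua (hga.comp _ hφa)
  rw [e2, e3, logDeriv_apply (dslope φ (x i)), logDeriv_apply (deriv φ), dslope_same,
    deriv_deriv_dslope hD.isOpen hφ (hxD i)] at e1
  unfold coefA
  simp only
  rw [e4, deriv_deriv_dslope hD.isOpen hφ (hxD i)]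
  push_cast at e1
  have e5 : 2 * deriv (dslope φ (x i)) (x i) / (8 * deriv φ (x i)) = deriv (dslope φ (x i)) (x i) / deriv φ (x i) / 4 := by
    field_simp; ring
  rw [e5]
  linear_combination e1 / 4

/-- two spins in the plane: `‖g z‖² ≤ C ‖z‖`, so `deriv g (x 0) = 0` (`Complex.norm_deriv_le_of_forall_mem_sphere_norm_le` on large circles, or `plane_growth` and Liouville) -/
theorem coefA_plane {x : Fin 2 → ℂ} (hx : Function.Injective x) {g : ℂ → ℂ} (hg : RHbr Set.univ x 0 g) :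
    coefA x 0 g = -(4 * (x 0 - x 1))⁻¹ := by
  have hd : Differentiable ℂ g := differentiableOn_univ.1 (by simpa using hg.1.hol)
  obtain ⟨C, R, h1⟩ := hg.1.inf
  obtain ⟨K, R₁, h2⟩ := plane_growth even_two hd fun z hz => h1 z (Set.mem_univ z) hz
  obtain ⟨R₂, hR₂, h3⟩ := rho_bounds x
  have h4 : ∀ z, max R₁ R₂ ≤ ‖z‖ → ‖g z‖ ≤ √(|K| * 4) := fun z hz => by
    have h0 : 0 < ‖z‖ := hR₂.trans_le ((le_max_right _ _).trans hz)
    refine Real.le_sqrt_of_sq_le (le_of_mul_le_mul_right ((h2 z ((le_max_left _ _).trans hz)).trans ?_) (pow_pos h0 2))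
    refine (mul_le_mul (le_abs_self K) (h3 z ((le_max_right _ _).trans hz)).2 (norm_nonneg _) (abs_nonneg _)).trans_eq ?_
    ring
  have h5 : deriv g (x 0) = 0 := by
    refine norm_le_zero_iff.1 (ge_of_tendsto (x := atTop) (f := fun r : ℝ => √(|K| * 4) / r)
      (tendsto_const_nhds.div_atTop tendsto_id) ?_)
    filter_upwards [eventually_gt_atTop 0, eventually_ge_atTop (max R₁ R₂ + ‖x 0‖)] with r h0 hr
    refine Complex.norm_deriv_le_of_forall_mem_sphere_norm_le h0 hd.diffContOnCl fun z hz => h4 z ?_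
    have := norm_sub_le z (x 0)
    rw [mem_sphere_iff_norm.1 hz] at this
    linarith
  have e : (Finset.univ : Finset (Fin 2)).erase 0 = {1} := by decide
  unfold coefA
  rw [h5, e, Finset.sum_singleton, mul_inv]
  ring

/-- the boundary sign condition from distributional subharmonicity of the zero extension -/
theorem not_neg_near {D : Set ℂ} (hD : Nice D) {ζ : ℂ} (hζ : ζ ∈ frontier D) {r : ℝ} (hr : 0 < r) {h : ℂ → ℝ}
    (hc : ContinuousOn h (D ∩ Metric.ball ζ r)) (hb : ∃ C, ∀ z ∈ D ∩ Metric.ball ζ r, |h z| ≤ C * Metric.infDist z Dᶜ)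
    (hs : ∀ η : ℂ → ℝ, ContDiff ℝ (⊤ : ℕ∞) η → tsupport η ⊆ Metric.ball ζ r → HasCompactSupport η → (∀ z, 0 ≤ η z) →
      0 ≤ ∫ z in D, h z * Laplacian.laplacian η z) :
    ∀ r' > 0, ∃ z ∈ D, dist z ζ < r' ∧ dist z ζ < r ∧ 0 ≤ h z :=
  not_neg_near' hD hζ hr hc hb hs

end Crest.Agent.R165
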