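import Crest.Agent.R165.Cont
import Crest.Agent.Lib.RMT.Inverse

/-! # R165 block CA: real potentials of holomorphic gradients, maximum principle (owner helper35) -/

set_option autoImplicit false
set_option linter.unusedVariables false
noncomputable section
open Classical Filter Topology Set Metric

namespace Crest.Agent.R165

/-- `v ↦ Re (a v)` -/
def reM (a : ℂ) : ℂ →L[ℝ] ℝ := Complex.reCLM.comp (a • ContinuousLinearMap.id ℝ ℂ : ℂ →L[ℝ] ℂ)

theorem reM_apply (a v : ℂ) : reM a v = (a * v).re := rfl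

/-- `du = Re (F dz)` on `U` with `F` holomorphic -/
def Gd (U : Set ℂ) (u : ℂ → ℝ) (F : ℂ → ℂ) : Prop :=
  DifferentiableOn ℂ F U ∧ ∀ z ∈ U, HasFDerivAt u (reM (F z)) z

/-- harmonic -/
def Hm (U : Set ℂ) (u : ℂ → ℝ) : Prop := ∃ F, Gd U u F

/-- `u` tends to zero at the boundary of `D` -/
def VanB (D : Set ℂ) (u : ℂ → ℝ) : Prop := ∀ ε > 0, ∃ δ > 0, ∀ z ∈ D, (∃ ζ, ζ ∉ D ∧ dist z ζ < δ) → |u z| < ε

/-- `u` is not negative near any boundary point -/
def SgnB (D : Set ℂ) (u : ℂ → ℝ) : Prop := ∀ ζ ∈ frontier D, ∀ r > 0, ∃ z ∈ D, dist z ζ < r ∧ 0 ≤ u z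

/-- the annulus `r < ‖z‖ < 1` -/
def Ann (r : ℝ) : Set ℂ := {z | r < ‖z‖ ∧ ‖z‖ < 1}

variable {U V : Set ℂ} {u v : ℂ → ℝ} {F G : ℂ → ℂ}

theorem hasF_re {f : ℂ → ℂ} {f' z : ℂ} (h : HasDerivAt f f' z) : HasFDerivAt (fun w => (f w).re) (reM f') z := by
  refine (Complex.reCLM.hasFDerivAt.comp z (h.hasFDerivAt.restrictScalars ℝ)).congr_fderiv ?_
  ext v; simp [reM_apply]; ring

theorem isOpen_Ann (r : ℝ) : IsOpen (Ann r) := by
  exact (isOpen_lt continuous_const continuous_norm).inter (isOpen_lt continuous_norm continuous_const)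

theorem Gd.mono (h : Gd U u F) (hV : V ⊆ U) : Gd V u F := by
  exact ⟨h.1.mono hV, fun z hz => h.2 z (hV hz)⟩

theorem Gd.add (h : Gd U u F) (h' : Gd U v G) : Gd U (fun z => u z + v z) fun z => F z + G z := by
  refine ⟨h.1.add h'.1, fun z hz => ((h.2 z hz).add (h'.2 z hz)).congr_fderiv ?_⟩
  ext v; simp [reM_apply]; ring

theorem Gd.cmul (h : Gd U u F) (c : ℝ) : Gd U (fun z => c * u z) fun z => c * F z := by
  refine ⟨h.1.const_mul _, fun z hz => ((h.2 z hz).const_mul c).congr_fderiv ?_⟩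
  ext v; simp [reM_apply]; ring

theorem Gd.const (U : Set ℂ) (c : ℝ) : Gd U (fun _ => c) fun _ => 0 := by
  refine ⟨differentiableOn_const _, fun z hz => (hasFDerivAt_const c z).congr_fderiv ?_⟩
  ext v; simp [reM_apply]

theorem Gd.comp (h : Gd U u F) (hV : IsOpen V) {φ : ℂ → ℂ} (hφ : DifferentiableOn ℂ φ V) (hm : MapsTo φ V U) :
    Gd V (fun z => u (φ z)) fun z => F (φ z) * deriv φ z := by
  refine ⟨(h.1.comp hφ hm).mul (hφ.deriv hV), fun z hz => ?_⟩
  have h1 := (hφ.differentiableAt (hV.mem_nhds hz)).hasDerivAt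
  refine ((h.2 _ (hm hz)).comp z (h1.hasFDerivAt.restrictScalars ℝ)).congr_fderiv ?_
  ext v; simp [reM_apply]; ring

theorem Gd.log_norm (hU : IsOpen U) {f : ℂ → ℂ} (hf : DifferentiableOn ℂ f U) (h0 : ∀ z ∈ U, f z ≠ 0) :
    Gd U (fun z => Real.log ‖f z‖) fun z => deriv f z / f z := by
  refine ⟨(hf.deriv hU).div hf h0, fun z hz => ?_⟩
  have h1 := (hf.differentiableAt (hU.mem_nhds hz)).hasDerivAt
  have h2 : HasDerivAt (fun w => Complex.log (f w / f z)) (deriv f z / f z) z := by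
    have := (h1.div_const (f z)).clog (by rw [div_self (h0 z hz)]; exact Complex.one_mem_slitPlane)
    rwa [div_self (h0 z hz), div_one] at this
  refine ((hasF_re h2).add_const (Real.log ‖f z‖)).congr_of_eventuallyEq ?_
  filter_upwards [hU.mem_nhds hz] with w hw
  rw [Complex.log_re, norm_div, Real.log_div (norm_ne_zero_iff.2 (h0 w hw)) (norm_ne_zero_iff.2 (h0 z hz))]
  ring

theorem Gd.path (h : Gd U u F) {γ : ℝ → ℂ} {γ' : ℂ} {t : ℝ} (hγ : HasDerivAt γ γ' t) (ht : γ t ∈ U) :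
    HasDerivAt (fun s => u (γ s)) (F (γ t) * γ').re t := by
  exact (h.2 _ ht).comp_hasDerivAt t hγ

theorem Hm.mono (h : Hm U u) (hV : V ⊆ U) : Hm V u := by
  obtain ⟨F, h⟩ := h
  exact ⟨F, h.mono hV⟩

theorem Hm.add (h : Hm U u) (h' : Hm U v) : Hm U fun z => u z + v z := by
  obtain ⟨F, h⟩ := h
  obtain ⟨G, h'⟩ := h'
  exact ⟨_, h.add h'⟩

theorem Hm.cmul (h : Hm U u) (c : ℝ) : Hm U fun z => c * u z := by
  obtain ⟨F, h⟩ := h
  exact ⟨_, h.cmul c⟩

theorem Hm.sub (h : Hm U u) (h' : Hm U v) : Hm U fun z => u z - v z := by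
  simpa [sub_eq_add_neg] using h.add (h'.cmul (-1))

theorem Hm.continuousAt (h : Hm U u) {z : ℂ} (hz : z ∈ U) : ContinuousAt u z := by
  obtain ⟨F, h⟩ := h
  exact (h.2 z hz).continuousAt

/-- `a * log ‖z - c‖ + b` -/
theorem hm_log {c : ℂ} (hU : IsOpen U) (hc : c ∉ U) (a b : ℝ) : Hm U fun z => a * Real.log ‖z - c‖ + b := by
  have h1 : Hm U fun z => Real.log ‖z - c‖ :=
    ⟨_, Gd.log_norm hU (f := fun z => z - c) (by fun_prop) fun z hz h => hc (sub_eq_zero.1 h ▸ hz)⟩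
  exact (h1.cmul a).add ⟨_, Gd.const U b⟩

theorem Hm.loc_const (h : Hm U u) (hU : IsOpen U) {z : ℂ} (hz : z ∈ U) (hm : IsLocalMax u z) :
    ∀ᶠ w in 𝓝 z, u w = u z := by
  obtain ⟨F, h⟩ := h
  obtain ⟨r, hr, hb⟩ := Metric.isOpen_iff.1 hU z hz
  obtain ⟨g, hg⟩ := (h.1.mono hb).isExactOn_ball
  have hd : ∀ w ∈ ball z r, HasFDerivAt (fun w => u w - (g w).re) (0 : ℂ →L[ℝ] ℝ) w := fun w hw => by
    exact ((h.2 w (hb hw)).sub (hasF_re (hg w hw))).congr_fderiv (sub_self _)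
  have hc : ∀ w ∈ ball z r, u w - (g w).re = u z - (g z).re := fun w hw =>
    isOpen_ball.is_const_of_fderiv_eq_zero (𝕜 := ℝ) (convex_ball z r).isPreconnected
      (fun y hy => (hd y hy).differentiableAt.differentiableWithinAt) (fun y hy => (hd y hy).fderiv) hw (mem_ball_self hr)
  have h1 : ∀ᶠ w in 𝓝 z, DifferentiableAt ℂ (fun w => Complex.exp (g w)) w := by
    filter_upwards [ball_mem_nhds z hr] with w hw using (hg w hw).differentiableAt.cexp
  have h2 : IsLocalMax (norm ∘ fun w => Complex.exp (g w)) z := by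
    filter_upwards [ball_mem_nhds z hr, hm] with w hw hw'
    simp only [Function.comp, Complex.norm_exp, Real.exp_le_exp]
    linarith [hc w hw]
  filter_upwards [ball_mem_nhds z hr, Complex.eventually_eq_of_isLocalMax_norm h1 h2] with w hw hw'
  have h3 := congrArg norm hw'
  simp only [Complex.norm_exp, Real.exp_eq_exp] at h3
  linarith [hc w hw]

/-- the maximum principle -/
theorem maxp (hU : IsOpen U) (hb : Bornology.IsBounded U) (h : Hm U u)
    (hf : ∀ ζ ∈ frontier U, ∀ ε > 0, ∀ᶠ z in 𝓝[U] ζ, u z < ε) : ∀ z ∈ U, u z ≤ 0 := by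
  have hcl : ∀ c > 0, IsClosed {z | z ∈ U ∧ c ≤ u z} := fun c hc => by
    refine isClosed_iff_frequently.2 fun w hw => ?_
    by_cases hwU : w ∈ U
    · refine ⟨hwU, ?_⟩
      by_contra hlt
      have := (h.continuousAt hwU).eventually (gt_mem_nhds (not_le.1 hlt))
      obtain ⟨y, hy, hy'⟩ := (hw.and_eventually this).exists
      exact absurd hy.2 (not_le.2 hy')
    · have hfr : w ∈ frontier U := by
        rw [hU.frontier_eq]
        exact ⟨mem_closure_iff_frequently.2 (hw.mono fun y hy => hy.1), hwU⟩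
      have := eventually_nhdsWithin_iff.1 (hf w hfr c hc)
      obtain ⟨y, hy, hy'⟩ := (hw.and_eventually this).exists
      exact absurd hy.2 (not_le.2 (hy' hy.1))
  intro z₀ hz₀
  by_contra hlt
  have hpos := not_le.1 hlt
  have hK : IsCompact {z | z ∈ U ∧ u z₀ ≤ u z} :=
    Metric.isCompact_of_isClosed_isBounded (hcl _ hpos) (hb.subset fun z hz => hz.1)
  obtain ⟨z₁, hz₁, hmax⟩ := hK.exists_isMaxOn ⟨z₀, hz₀, le_rfl⟩
    (fun z hz => (h.continuousAt hz.1).continuousWithinAt)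
  have hM : ∀ z ∈ U, u z ≤ u z₁ := fun z hz => by
    by_cases h1 : u z₀ ≤ u z
    · exact hmax ⟨hz, h1⟩
    · exact (not_le.1 h1).le.trans hz₁.2
  have hop : IsOpen {z | z ∈ U ∧ u z₁ ≤ u z} := by
    refine isOpen_iff_mem_nhds.2 fun w hw => ?_
    have h1 : IsLocalMax u w := by
      filter_upwards [hU.mem_nhds hw.1] with y hy using (hM y hy).trans hw.2
    filter_upwards [hU.mem_nhds hw.1, h.loc_const hU hw.1 h1] with y hy hy'
    exact ⟨hy, hy' ▸ hw.2⟩
  have huniv := IsClopen.eq_univ ⟨hcl _ (hpos.trans_le hz₁.2), hop⟩ ⟨z₁, hz₁.1, le_rfl⟩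
  have : Bornology.IsBounded (univ : Set ℂ) := hb.subset fun z hz => (huniv.symm ▸ hz : z ∈ {z | z ∈ U ∧ u z₁ ≤ u z}).1
  exact NormedSpace.unbounded_univ ℝ ℂ this

theorem vanB_ball (h : VanB (ball 0 1) u) : ∀ ε > 0, ∃ r < 1, ∀ z ∈ Ann r, |u z| < ε := by
  intro ε hε
  obtain ⟨δ, hδ, hh⟩ := h ε hε
  refine ⟨max (1 - δ) 0, max_lt (by linarith) one_pos, fun z hz => hh z (by simpa using hz.2) ?_⟩
  have h0 : 0 < ‖z‖ := (le_max_right _ _).trans_lt hz.1
  have h1 : 1 - δ < ‖z‖ := (le_max_left _ _).trans_lt hz.1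
  refine ⟨(‖z‖⁻¹ : ℝ) * z, ?_, ?_⟩
  · simp [h0.ne']
  · have : z - (‖z‖⁻¹ : ℝ) * z = ((1 - ‖z‖⁻¹ : ℝ) : ℂ) * z := by push_cast; ring
    rw [dist_eq_norm, this, norm_mul, Complex.norm_real, Real.norm_eq_abs, abs_of_nonpos, neg_sub, sub_mul,
      inv_mul_cancel₀ h0.ne']
    · linarith
    · have := (one_lt_inv₀ h0).2 hz.2
      linarith

end Crest.Agent.R165
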