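import Crest.Agent.R165.CA.Base

/-! # R165 block CA: boundary behaviour on the unit circle without reflection (owner helper35) -/

set_option autoImplicit false
set_option linter.unusedVariables false
noncomputable section
open Classical Filter Topology Set Metric

namespace Crest.Agent.R165

variable {u : ℂ → ℝ} {F : ℂ → ℂ} {r₀ : ℝ}

theorem ann_sub {r r' : ℝ} (h : r ≤ r') : Ann r' ⊆ Ann r := fun z hz => ⟨h.trans_lt hz.1, hz.2⟩

theorem ann_barrier1 {r₁ M : ℝ} (h01 : r₀ < r₁) (h0 : 0 < r₁) (h1 : r₁ < 1) (hu : Hm (Ann r₀) u)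
    (hv : ∀ ε > 0, ∃ r < 1, ∀ z ∈ Ann r, |u z| < ε) (hM : ∀ z, ‖z‖ = r₁ → |u z| ≤ M) :
    ∀ z ∈ Ann r₁, u z ≤ M * (Real.log ‖z‖ / Real.log r₁) := by
  have hl : Real.log r₁ < 0 := Real.log_neg h0 h1
  have hM0 : 0 ≤ M := (abs_nonneg _).trans (hM r₁ (by simp [h0.le]))
  have hb : Bornology.IsBounded (Ann r₁) := (isBounded_ball (x := (0 : ℂ)) (r := 1)).subset fun z hz => by simpa using hz.2
  have hw : Hm (Ann r₁) fun z => u z + (-M / Real.log r₁ * Real.log ‖z - 0‖ + 0) :=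
    (hu.mono (ann_sub h01.le)).add (hm_log (isOpen_Ann _) (fun h => by simpa using h0.trans h.1) _ _)
  have key := maxp (isOpen_Ann _) hb hw fun ζ hζ ε hε => by
    rw [(isOpen_Ann _).frontier_eq] at hζ
    have hcl : closure (Ann r₁) ⊆ {z | r₁ ≤ ‖z‖ ∧ ‖z‖ ≤ 1} :=
      closure_minimal (fun z hz => ⟨hz.1.le, hz.2.le⟩)
        ((isClosed_le continuous_const continuous_norm).inter (isClosed_le continuous_norm continuous_const))
    obtain ⟨a1, a2⟩ := hcl hζ.1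
    rcases a1.eq_or_lt with e | a1
    · have hζ0 : ζ ∈ Ann r₀ := ⟨e ▸ h01, e ▸ h1⟩
      have hc : ContinuousAt (fun z => u z + (-M / Real.log r₁ * Real.log ‖z - 0‖ + 0)) ζ := by
        refine (hu.continuousAt hζ0).add ((continuousAt_const.mul (ContinuousAt.log (by fun_prop) ?_)).add continuousAt_const)
        simpa [← e] using h0.ne'
      refine (hc.eventually (gt_mem_nhds ?_)).filter_mono nhdsWithin_le_nhds
      have := (abs_le.1 (hM ζ e.symm)).2
      simp only [sub_zero, add_zero, ← e]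
      rw [div_mul_cancel₀ _ hl.ne]
      linarith
    · have e : ‖ζ‖ = 1 := le_antisymm a2 (not_lt.1 fun h => hζ.2 ⟨a1, h⟩)
      obtain ⟨r, hr, h⟩ := hv ε hε
      have : ∀ᶠ z in 𝓝 ζ, r < ‖z‖ := continuous_norm.continuousAt.eventually (lt_mem_nhds (hr.trans_eq e.symm))
      filter_upwards [self_mem_nhdsWithin, this.filter_mono nhdsWithin_le_nhds] with z hz hz'
      have b1 := (abs_lt.1 (h z ⟨hz', hz.2⟩)).2
      have b2 : Real.log ‖z‖ ≤ 0 := Real.log_nonpos (norm_nonneg _) hz.2.le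
      have b3 : 0 ≤ -M / Real.log r₁ := div_nonneg_of_nonpos (by linarith) hl.le
      simp only [sub_zero, add_zero]
      nlinarith [mul_nonpos_of_nonneg_of_nonpos b3 b2]
  intro z hz
  have := key z hz
  simp only [sub_zero, add_zero] at this
  have e : M * (Real.log ‖z‖ / Real.log r₁) = -(-M / Real.log r₁ * Real.log ‖z‖) := by ring
  linarith

theorem ann_barrier {r₁ M : ℝ} (h01 : r₀ < r₁) (h0 : 0 < r₁) (h1 : r₁ < 1) (hu : Hm (Ann r₀) u)
    (hv : ∀ ε > 0, ∃ r < 1, ∀ z ∈ Ann r, |u z| < ε) (hM : ∀ z, ‖z‖ = r₁ → |u z| ≤ M) :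
    ∀ z ∈ Ann r₁, |u z| ≤ M * (Real.log ‖z‖ / Real.log r₁) := by
  intro z hz
  have hv' : ∀ ε > 0, ∃ r < 1, ∀ z ∈ Ann r, |-1 * u z| < ε := fun ε hε => by
    obtain ⟨r, hr, h⟩ := hv ε hε
    exact ⟨r, hr, fun z hz => by simpa using h z hz⟩
  have a1 := ann_barrier1 h01 h0 h1 hu hv hM z hz
  have a2 := ann_barrier1 h01 h0 h1 (hu.cmul (-1)) hv' (fun z hz => by simpa using hM z hz) z hz
  exact abs_le.2 ⟨by linarith, a1⟩

theorem ann_tan (hr : r₀ < 1) (hu : Gd (Ann r₀) u F) (hv : ∀ ε > 0, ∃ r < 1, ∀ z ∈ Ann r, |u z| < ε) :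
    ∃ r₁ K : ℝ, r₀ ≤ r₁ ∧ 0 < r₁ ∧ r₁ < 1 ∧ 0 < K ∧ ∀ z ∈ Ann r₁, |(z * F z).im| ≤ K * (1 - ‖z‖) := by
  obtain ⟨r₁, h01, h0, h1⟩ : ∃ r₁, r₀ < r₁ ∧ 0 < r₁ ∧ r₁ < 1 :=
    ⟨max ((r₀ + 1) / 2) (1 / 2), lt_max_of_lt_left (by linarith), lt_max_of_lt_right (by norm_num),
      max_lt (by linarith) (by norm_num)⟩
  have hl : Real.log r₁ < 0 := Real.log_neg h0 h1
  have hsph : sphere (0 : ℂ) r₁ ⊆ Ann r₀ := fun z hz => by
    have : ‖z‖ = r₁ := by simpa using hz
    exact ⟨this ▸ h01, this ▸ h1⟩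
  obtain ⟨B, hB⟩ := (isCompact_sphere (0 : ℂ) r₁).exists_bound_of_continuousOn
    (f := fun z => F z * z) ((hu.1.continuousOn.mono hsph).mul continuousOn_id)
  have hB0 : 0 ≤ B := (norm_nonneg _).trans (hB r₁ (by simp [h0.le]))
  have hn : ∀ (τ : ℝ) (z : ℂ), ‖Complex.exp (τ * Complex.I) * z‖ = ‖z‖ := fun τ z => by
    rw [norm_mul, Complex.norm_exp_ofReal_mul_I, one_mul]
  have hd : ∀ z ∈ Ann r₀, ∀ τ : ℝ, HasDerivAt (fun s : ℝ => u (Complex.exp (s * Complex.I) * z))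
      (F (Complex.exp (τ * Complex.I) * z) * (Complex.exp (τ * Complex.I) * z) * Complex.I).re τ := fun z hz τ => by
    have h1 : HasDerivAt (fun s : ℝ => Complex.exp (s * Complex.I) * z)
        (Complex.exp (τ * Complex.I) * Complex.I * z) τ := by
      have := ((((hasDerivAt_id (τ : ℂ)).mul_const Complex.I).cexp).mul_const z).comp_ofReal
      simpa using this
    have := hu.path h1 (show _ ∈ Ann r₀ from ⟨by rw [hn]; exact hz.1, by rw [hn]; exact hz.2⟩)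
    convert this using 2
    ring
  have hbar : ∀ τ : ℝ, ∀ z ∈ Ann r₁, |u (Complex.exp (τ * Complex.I) * z) - u z| ≤
      B * |τ| * (Real.log ‖z‖ / Real.log r₁) := fun τ => by
    refine ann_barrier h01 h0 h1 (Hm.sub ⟨_, hu.comp (isOpen_Ann _) (φ := fun z => Complex.exp (τ * Complex.I) * z)
      (by fun_prop) fun z hz => ⟨by rw [hn]; exact hz.1, by rw [hn]; exact hz.2⟩⟩ ⟨F, hu⟩) (fun ε hε => ?_) fun z hz => ?_
    · obtain ⟨r, hr, h⟩ := hv (ε / 2) (half_pos hε)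
      refine ⟨r, hr, fun z hz => ?_⟩
      have a1 := abs_lt.1 (h z hz)
      have a2 := abs_lt.1 (h (Complex.exp (τ * Complex.I) * z) ⟨by rw [hn]; exact hz.1, by rw [hn]; exact hz.2⟩)
      exact abs_lt.2 ⟨by linarith, by linarith⟩
    · have hz0 : z ∈ Ann r₀ := hsph (by simpa using hz)
      have := convex_univ.norm_image_sub_le_of_norm_hasDerivWithin_le (𝕜 := ℝ) (C := B)
        (fun s _ => (hd z hz0 s).hasDerivWithinAt) (fun s _ => by
          refine (Complex.abs_re_le_norm _).trans ?_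
          rw [norm_mul, Complex.norm_I, mul_one]
          exact hB _ (by simp [hz])) (mem_univ 0) (mem_univ τ)
      simpa using this
  refine ⟨r₁, (B + 1) / (r₁ * -Real.log r₁), h01.le, h0, h1, div_pos (by linarith) (mul_pos h0 (by linarith)),
    fun z hz => ?_⟩
  have hz0 : 0 < ‖z‖ := h0.trans hz.1
  have b2 : Real.log ‖z‖ ≤ 0 := Real.log_nonpos (norm_nonneg _) hz.2.le
  have b3 : 0 ≤ Real.log ‖z‖ / Real.log r₁ := div_nonneg_of_nonpos b2 hl.le
  have := (hd z (ann_sub h01.le hz) 0).le_of_lip' (C := B * (Real.log ‖z‖ / Real.log r₁)) (mul_nonneg hB0 b3)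
    (Eventually.of_forall fun τ => by
      have := hbar τ z hz
      simp only [Complex.ofReal_zero, zero_mul, Complex.exp_zero, one_mul, sub_zero, Real.norm_eq_abs]
      linarith)
  simp only [Complex.ofReal_zero, zero_mul, Complex.exp_zero, one_mul, Real.norm_eq_abs, Complex.mul_I_re, abs_neg] at this
  rw [mul_comm z]
  refine this.trans ?_
  have b4 : -Real.log ‖z‖ ≤ (1 - ‖z‖) / r₁ := by
    have := Real.one_sub_inv_le_log_of_pos hz0
    have e : ‖z‖⁻¹ - 1 = (1 - ‖z‖) / ‖z‖ := by field_simp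
    have : (1 - ‖z‖) / ‖z‖ ≤ (1 - ‖z‖) / r₁ := div_le_div_of_nonneg_left (by linarith [hz.2]) h0 hz.1.le
    linarith
  have e1 : B * (Real.log ‖z‖ / Real.log r₁) = B * -Real.log ‖z‖ / -Real.log r₁ := by
    field_simp
  have e2 : (B + 1) / (r₁ * -Real.log r₁) * (1 - ‖z‖) = (B + 1) * ((1 - ‖z‖) / r₁) / -Real.log r₁ := by
    field_simp
  rw [e1, e2]
  refine div_le_div_of_nonneg_right ?_ (by linarith)
  exact mul_le_mul (by linarith) b4 (by linarith) (by linarith)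

theorem deriv_le_of_im {G : ℂ → ℂ} {z : ℂ} {d K : ℝ} (hd : 0 < d) (hK : 0 < K) (hG : DifferentiableOn ℂ G (ball z d))
    (h : ∀ w ∈ ball z d, |(G w).im| ≤ K) : ‖deriv G z‖ ≤ 2 * Real.exp 2 * K / d := by
  have hd2 : 0 < d / 2 := half_pos hd
  have hsub : closedBall z (d / 2) ⊆ ball z d := closedBall_subset_ball (half_lt_self hd)
  have hH : DifferentiableOn ℂ (fun w => Complex.exp (Complex.I * (G w - G z) / K)) (ball z d) :=
    (((hG.sub_const _).const_mul _).div_const _).cexp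
  have h1 := Complex.norm_deriv_le_of_forall_mem_sphere_norm_le (C := Real.exp 2) hd2
    ((hH.mono (closure_ball_subset_closedBall.trans hsub)).diffContOnCl) fun w hw => by
      rw [Complex.norm_exp, Real.exp_le_exp, Complex.div_ofReal_re, div_le_iff₀ hK]
      have a1 := abs_le.1 (h w (hsub (sphere_subset_closedBall hw)))
      have a2 := abs_le.1 (h z (mem_ball_self hd))
      simp only [Complex.mul_re, Complex.I_re, Complex.I_im, Complex.sub_im]
      linarith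
  have h2 := ((((hG.differentiableAt (ball_mem_nhds z hd)).hasDerivAt.sub_const (G z)).const_mul
    Complex.I).div_const (K : ℂ)).cexp.deriv
  rw [h2] at h1
  simp only [sub_self, mul_zero, zero_div, Complex.exp_zero, one_mul, norm_div, norm_mul, Complex.norm_I,
    Complex.norm_real, Real.norm_eq_abs, abs_of_pos hK] at h1
  rw [div_le_iff₀ hK] at h1
  refine h1.trans_eq ?_
  field_simp

/-- along a ray -/
theorem ray_le {r c : ℝ} (h0 : 0 < r) (hu : Gd (Ann r) u F) (hv : ∀ ε > 0, ∃ r < 1, ∀ z ∈ Ann r, |u z| < ε) {z : ℂ}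
    (hz : z ∈ Ann r) (h : ∀ t : ℝ, 1 ≤ t → t * ‖z‖ < 1 → ((t * z) * F (t * z)).re ≤ c) : c * Real.log ‖z‖ ≤ u z := by
  have hz0 : 0 < ‖z‖ := h0.trans hz.1
  have hT : 0 < -Real.log ‖z‖ := by linarith [Real.log_neg hz0 hz.2]
  have hn : ∀ s : ℝ, ‖(Real.exp s : ℂ) * z‖ = Real.exp s * ‖z‖ := fun s => by
    rw [norm_mul, Complex.norm_real, Real.norm_eq_abs, abs_of_pos (Real.exp_pos s)]
  have hT1 : Real.exp (-Real.log ‖z‖) * ‖z‖ = 1 := by
    rw [Real.exp_neg, Real.exp_log hz0, inv_mul_cancel₀ hz0.ne']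
  have hlt : ∀ s < -Real.log ‖z‖, Real.exp s * ‖z‖ < 1 := fun s hs => by
    rw [← hT1]; exact mul_lt_mul_of_pos_right (Real.exp_lt_exp.2 hs) hz0
  have hd : ∀ s ∈ Ico 0 (-Real.log ‖z‖), HasDerivAt (fun s : ℝ => u ((Real.exp s : ℂ) * z) - c * s)
      ((F ((Real.exp s : ℂ) * z) * ((Real.exp s : ℂ) * z)).re - c) s := fun s hs => by
    have h1 : HasDerivAt (fun s : ℝ => (Real.exp s : ℂ) * z) ((Real.exp s : ℂ) * z) s :=
      (Real.hasDerivAt_exp s).ofReal_comp.mul_const z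
    have h2 := hu.path h1 (show _ ∈ Ann r from ⟨by
      rw [hn]; nlinarith [Real.one_le_exp hs.1, hz.1], by rw [hn]; exact hlt s hs.2⟩)
    exact (h2.sub ((hasDerivAt_id s).const_mul c)).congr_deriv (by rw [mul_one])
  have hanti : AntitoneOn (fun s : ℝ => u ((Real.exp s : ℂ) * z) - c * s) (Ico 0 (-Real.log ‖z‖)) := by
    refine antitoneOn_of_deriv_nonpos (convex_Ico _ _) (fun s hs => (hd s hs).continuousAt.continuousWithinAt)
      (fun s hs => (hd s (interior_subset hs)).differentiableAt.differentiableWithinAt) fun s hs => ?_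
    have hs' := interior_subset hs
    rw [(hd s hs').deriv, mul_comm (F _)]
    linarith [h _ (Real.one_le_exp hs'.1) (hlt s hs'.2)]
  have hlim : Tendsto (fun s : ℝ => u ((Real.exp s : ℂ) * z) - c * s) (𝓝[<] (-Real.log ‖z‖))
      (𝓝 (0 - c * -Real.log ‖z‖)) := by
    refine Tendsto.sub ?_ (((continuous_const.mul continuous_id).tendsto _).mono_left nhdsWithin_le_nhds)
    refine Metric.tendsto_nhds.2 fun ε hε => ?_
    obtain ⟨r', hr', h'⟩ := hv ε hε
    have hc : Continuous fun s : ℝ => Real.exp s * ‖z‖ := by fun_prop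
    have : ∀ᶠ s in 𝓝 (-Real.log ‖z‖), r' < Real.exp s * ‖z‖ :=
      hc.continuousAt.eventually (lt_mem_nhds (hr'.trans_eq hT1.symm))
    filter_upwards [self_mem_nhdsWithin, this.filter_mono nhdsWithin_le_nhds] with s hs hs'
    rw [Real.dist_eq, sub_zero]
    exact h' _ ⟨by rwa [hn], by rw [hn]; exact hlt s hs⟩
  have := le_of_tendsto hlim (b := u z) (by
    filter_upwards [Ioo_mem_nhdsLT hT] with s hs
    simpa using hanti ⟨le_rfl, hT⟩ ⟨hs.1.le, hs.2⟩ hs.1.le)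
  linarith

theorem exists_unit {z : ℂ} (h0 : 0 < ‖z‖) (h1 : ‖z‖ < 1) : ∃ ζ : ℂ, ‖ζ‖ = 1 ∧ dist z ζ = 1 - ‖z‖ := by
  refine ⟨(‖z‖⁻¹ : ℝ) * z, by simp [norm_pos_iff.1 h0], ?_⟩
  have : z - (‖z‖⁻¹ : ℝ) * z = ((1 - ‖z‖⁻¹ : ℝ) : ℂ) * z := by push_cast; ring
  rw [dist_eq_norm, this, norm_mul, Complex.norm_real, Real.norm_eq_abs, abs_of_nonpos, neg_sub, sub_mul,
    inv_mul_cancel₀ h0.ne', one_mul]
  have := (one_lt_inv₀ h0).2 h1
  linarith

theorem disc_defect (hr : r₀ < 1) (hu : Gd (Ann r₀) u F) (hv : VanB (ball 0 1) u) (hs : SgnB (ball 0 1) u) :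
    ∀ ε > 0, ∃ r < 1, ∀ z ∈ Ann r, |(z * F z).im| ≤ ε ∧ (z * F z).re ≤ ε := by
  intro ε hε
  have hv' := vanB_ball hv
  obtain ⟨r₁, K, h01, h0, h1, hK, hb⟩ := ann_tan hr hu hv'
  set r₂ := (1 + r₁) / 2 with hr₂
  set L := 4 * Real.exp 2 * K with hL
  have hL0 : 0 < L := by positivity
  have hG : DifferentiableOn ℂ (fun z => z * F z) (Ann r₁) := differentiableOn_id.mul (hu.1.mono (ann_sub h01))
  have hder : ∀ z ∈ Ann r₂, ‖deriv (fun z => z * F z) z‖ ≤ L := fun z hz => by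
    have hd : 0 < 1 - ‖z‖ := by linarith [hz.2]
    have hsub : ∀ w ∈ ball z (1 - ‖z‖), 2 * ‖z‖ - 1 < ‖w‖ ∧ ‖w‖ < 1 := fun w hw => by
      have := abs_lt.1 ((abs_norm_sub_norm_le w z).trans_lt (mem_ball_iff_norm.1 hw))
      constructor <;> linarith
    have hsub' : ball z (1 - ‖z‖) ⊆ Ann r₁ := fun w hw => ⟨by linarith [(hsub w hw).1, hz.1], (hsub w hw).2⟩
    refine (deriv_le_of_im (K := K * (2 * (1 - ‖z‖))) hd (by positivity) (hG.mono hsub') fun w hw =>
      (hb w (hsub' hw)).trans (mul_le_mul_of_nonneg_left (by linarith [(hsub w hw).1]) hK.le)).trans_eq ?_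
    rw [hL]; field_simp; ring
  obtain ⟨η, hη, hη1, hη2⟩ : ∃ η > 0, η ≤ 1 - r₂ ∧ L * (2 * η) ≤ ε / 2 :=
    ⟨min (1 - r₂) (ε / (4 * L)), lt_min (by linarith) (by positivity), min_le_left _ _, by
      have : min (1 - r₂) (ε / (4 * L)) ≤ ε / (4 * L) := min_le_right _ _
      rw [le_div_iff₀ (by positivity)] at this
      linarith⟩
  refine ⟨max (1 - ε / K) (1 - η), max_lt (by linarith [div_pos hε hK]) (by linarith), fun z₀ hz₀ => ⟨?_, ?_⟩⟩
  · have a1 : 1 - ε / K < ‖z₀‖ := (le_max_left _ _).trans_lt hz₀.1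
    have a2 : 1 - η < ‖z₀‖ := (le_max_right _ _).trans_lt hz₀.1
    refine (hb z₀ ⟨by linarith, hz₀.2⟩).trans ?_
    rw [← le_div_iff₀' hK]
    linarith
  have a2 : 1 - η < ‖z₀‖ := (le_max_right _ _).trans_lt hz₀.1
  have a0 : 0 < ‖z₀‖ := by linarith
  by_contra hlt
  have hlt := not_le.1 hlt
  obtain ⟨ζ, hζ1, hζ2⟩ := exists_unit a0 hz₀.2
  have hW : ∀ w ∈ ball ζ η ∩ ball 0 1, w ∈ Ann r₂ := fun w hw => by
    have := abs_lt.1 ((abs_norm_sub_norm_le w ζ).trans_lt (mem_ball_iff_norm.1 hw.1))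
    exact ⟨by linarith, by simpa using hw.2⟩
  have hz₀W : z₀ ∈ ball ζ η ∩ ball 0 1 := ⟨by rw [mem_ball, hζ2]; linarith, by simpa using hz₀.2⟩
  have hre : ∀ w ∈ ball ζ η ∩ ball 0 1, ε / 2 ≤ (w * F w).re := fun w hw => by
    have h2 := ((convex_ball ζ η).inter (convex_ball 0 1)).norm_image_sub_le_of_norm_deriv_le (𝕜 := ℂ)
      (fun w hw => hG.differentiableAt ((isOpen_Ann _).mem_nhds (ann_sub (by linarith) (hW w hw))))
      (fun w hw => hder w (hW w hw)) hz₀W hw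
    have h3 : ‖w - z₀‖ ≤ 2 * η := by
      have := dist_triangle_right w z₀ ζ
      rw [← dist_eq_norm]
      linarith [mem_ball.1 hw.1, mem_ball.1 hz₀W.1]
    have h4 := (abs_le.1 ((Complex.abs_re_le_norm _).trans (h2.trans (mul_le_mul_of_nonneg_left h3 hL0.le)))).1
    rw [Complex.sub_re] at h4
    linarith
  obtain ⟨z, hz, hzζ, hz0⟩ := hs ζ (by rw [frontier_ball _ one_ne_zero]; simpa using hζ1) (η / 2) (half_pos hη)
  have hzA : z ∈ Ann r₂ := hW z ⟨mem_ball.2 (by linarith), hz⟩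
  have hz1 : 1 - η / 2 < ‖z‖ := by
    have := abs_lt.1 ((abs_norm_sub_norm_le z ζ).trans_lt (by rwa [← dist_eq_norm]))
    linarith
  have := ray_le (r := r₂) (c := -(ε / 2)) (by linarith) ((hu.mono (ann_sub (by linarith))).cmul (-1))
    (fun ε hε => by
      obtain ⟨r, hr, h⟩ := hv' ε hε
      exact ⟨r, hr, fun z hz => by simpa using h z hz⟩) hzA fun t ht ht1 => by
      have b1 : ‖(t : ℂ) * z‖ = t * ‖z‖ := by
        rw [norm_mul, Complex.norm_real, Real.norm_eq_abs, abs_of_pos (by linarith)]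
      have b2 : dist ((t : ℂ) * z) z = (t - 1) * ‖z‖ := by
        have : (t : ℂ) * z - z = ((t - 1 : ℝ) : ℂ) * z := by push_cast; ring
        rw [dist_eq_norm, this, norm_mul, Complex.norm_real, Real.norm_eq_abs, abs_of_nonneg (by linarith)]
      have := hre (t * z) ⟨by
        have := dist_triangle ((t : ℂ) * z) z ζ
        rw [mem_ball]
        nlinarith, by rw [mem_ball_zero_iff, b1]; exact ht1⟩
      have e : ((t : ℂ) * z * (((-1 : ℝ) : ℂ) * F (t * z))).re = -((t : ℂ) * z * F (t * z)).re := by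
        rw [← Complex.neg_re]; congr 1; push_cast; ring
      rw [e]
      linarith
  have b3 : Real.log ‖z‖ < 0 := Real.log_neg (by linarith) hzA.2
  nlinarith

theorem disc_lower (hr : r₀ < 1) (hu : Hm (Ann r₀) u) (hv : VanB (ball 0 1) u) (hs : SgnB (ball 0 1) u) :
    ∀ ε > 0, ∃ r < 1, ∀ z ∈ Ann r, ε * Real.log ‖z‖ ≤ u z := by
  intro ε hε
  obtain ⟨F, hu⟩ := hu
  obtain ⟨r, hr1, h⟩ := disc_defect hr hu hv hs ε hε
  refine ⟨max r (max r₀ (1 / 2)), max_lt hr1 (max_lt hr (by norm_num)), fun z hz => ?_⟩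
  have h0 : 0 < max r (max r₀ (1 / 2)) := lt_max_of_lt_right (lt_max_of_lt_right (by norm_num))
  refine ray_le h0 (hu.mono (ann_sub (le_max_of_le_right (le_max_left _ _)))) (vanB_ball hv) hz fun t ht ht1 => ?_
  have b1 : ‖(t : ℂ) * z‖ = t * ‖z‖ := by
    rw [norm_mul, Complex.norm_real, Real.norm_eq_abs, abs_of_pos (by linarith)]
  refine (h _ ⟨?_, by rwa [b1]⟩).2
  rw [b1]
  nlinarith [(le_max_left _ _).trans_lt hz.1, norm_nonneg z]

end Crest.Agent.R165
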