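import Crest.Agent.R165.CA.Base

/-! # R165 block CA: Hopf lemma and exterior barrier (owner helper35) -/

set_option autoImplicit false
set_option linter.unusedVariables false
noncomputable section
open Classical Filter Topology Set Metric

namespace Crest.Agent.R165

variable {u v : ℂ → ℝ}

/-- Hopf.  `-m = ` the maximum of `u` on the sphere of radius `ρ / 2`; `maxp` on the annulus `ρ / 2 < ‖z - c‖ < ρ` for
`u z + m (log ρ - log ‖z - c‖) / log 2` (`hm_log`); `log (ρ / s) ≥ (ρ - s) / ρ`. -/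
theorem hopf_in {c : ℂ} {ρ : ℝ} (hρ : 0 < ρ) (hu : Hm (ball c ρ) u) (hn : ∀ z ∈ ball c ρ, u z < 0) :
    ∃ m > 0, ∀ z, ρ / 2 < ‖z - c‖ → ‖z - c‖ < ρ → u z ≤ -(m * (ρ - ‖z - c‖)) := by
  have h2 : 0 < ρ / 2 := half_pos hρ
  have hl : 0 < Real.log 2 := Real.log_pos one_lt_two
  have hsph : sphere c (ρ / 2) ⊆ ball c ρ := sphere_subset_closedBall.trans (closedBall_subset_ball (half_lt_self hρ))
  obtain ⟨z₁, hz₁, hmax⟩ := (isCompact_sphere c (ρ / 2)).exists_isMaxOn (NormedSpace.sphere_nonempty.2 h2.le)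
    (f := u) fun z hz => (hu.continuousAt (hsph hz)).continuousWithinAt
  set m := -u z₁ with hm
  have hm0 : 0 < m := by linarith [hn z₁ (hsph hz₁)]
  have hcn : Continuous fun z : ℂ => ‖z - c‖ := by fun_prop
  have hop : IsOpen {z | ρ / 2 < ‖z - c‖ ∧ ‖z - c‖ < ρ} :=
    (isOpen_lt continuous_const hcn).inter (isOpen_lt hcn continuous_const)
  have hsub : {z | ρ / 2 < ‖z - c‖ ∧ ‖z - c‖ < ρ} ⊆ ball c ρ := fun z hz => mem_ball_iff_norm.2 hz.2
  have key := maxp hop (isBounded_ball.subset hsub) ((hu.mono hsub).add (hm_log (c := c) hop (fun h => by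
    have := h.1
    simp only [sub_self, norm_zero] at this
    linarith) (-m / Real.log 2) (m / Real.log 2 * Real.log ρ))) fun ζ hζ ε hε => by
    rw [hop.frontier_eq] at hζ
    have hcl : closure {z | ρ / 2 < ‖z - c‖ ∧ ‖z - c‖ < ρ} ⊆ {z | ρ / 2 ≤ ‖z - c‖ ∧ ‖z - c‖ ≤ ρ} :=
      closure_minimal (fun z hz => ⟨hz.1.le, hz.2.le⟩)
        ((isClosed_le continuous_const hcn).inter (isClosed_le hcn continuous_const))
    obtain ⟨a1, a2⟩ := hcl hζ.1
    have hc : ContinuousAt (fun z => -m / Real.log 2 * Real.log ‖z - c‖ + m / Real.log 2 * Real.log ρ) ζ :=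
      (continuousAt_const.mul (hcn.continuousAt.log (h2.trans_le a1).ne')).add continuousAt_const
    rcases a1.eq_or_lt with e | a1
    · have hζ0 : ζ ∈ sphere c (ρ / 2) := mem_sphere_iff_norm.2 e.symm
      refine (((hu.continuousAt (hsph hζ0)).add hc).eventually (gt_mem_nhds ?_)).filter_mono nhdsWithin_le_nhds
      have a3 : u ζ ≤ u z₁ := hmax hζ0
      have a4 : -m / Real.log 2 * Real.log (ρ / 2) + m / Real.log 2 * Real.log ρ = m := by
        rw [Real.log_div hρ.ne' two_ne_zero]; field_simp; ring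
      simp only [Pi.add_apply, ← e, a4]
      linarith
    · have e : ‖ζ - c‖ = ρ := le_antisymm a2 (not_lt.1 fun h => hζ.2 ⟨a1, h⟩)
      have := hc.eventually (gt_mem_nhds (a := ε) (by simp only [e]; ring_nf; exact hε))
      filter_upwards [self_mem_nhdsWithin, this.filter_mono nhdsWithin_le_nhds] with z hz hz'
      linarith [hn z (hsub hz)]
  refine ⟨m / Real.log 2 / ρ, by positivity, fun z a1 a2 => ?_⟩
  have a3 := key z ⟨a1, a2⟩
  have a0 : 0 < ‖z - c‖ := h2.trans a1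
  have a4 := Real.log_le_sub_one_of_pos (div_pos a0 hρ)
  rw [Real.log_div a0.ne' hρ.ne'] at a4
  have a5 := mul_le_mul_of_nonneg_left a4 (div_pos hm0 hl).le
  have e : m / Real.log 2 / ρ * (ρ - ‖z - c‖) = -(m / Real.log 2 * (‖z - c‖ / ρ - 1)) := by field_simp; ring
  have e' : -m / Real.log 2 = -(m / Real.log 2) := neg_div _ _
  rw [e'] at a3
  rw [e]
  linarith

/-- Exterior barrier.  Choose `r₁ < r` with `|v| < 1` on `D ∩ closedBall ζ r₁`; `c = ζ - (ρ / 2) ν`; for `z ∈ closure D`: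
`‖z - c‖² ≥ ‖z - ζ‖² / 2 + ρ² / 4`; `maxp` on `D ∩ ball ζ r₁` for `v z - a (log ‖z - c‖ - log (ρ / 2))`. -/
theorem hopf_out {D : Set ℂ} (hD : IsOpen D) {ζ ν : ℂ} (hζ : ζ ∉ D) (hν : ‖ν‖ = 1) {ρ r : ℝ} (hρ : 0 < ρ) (hr : 0 < r)
    (hd : Disjoint (ball (ζ - ρ * ν) ρ) (closure D)) (hv : Hm (D ∩ ball ζ r) v) (h0 : VanB D v) :
    ∃ C : ℝ, ∀ᶠ t : ℝ in 𝓝[>] 0, ζ + t * ν ∈ D → v (ζ + t * ν) ≤ C * t := by
  have h2 : 0 < ρ / 2 := half_pos hρ
  obtain ⟨δ, hδ, hv1⟩ := h0 1 one_pos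
  set r₁ := min r δ with hr₁
  have hr1 : 0 < r₁ := lt_min hr hδ
  set c := ζ - (ρ / 2 : ℝ) * ν with hc
  have hsq : ∀ z ∈ closure D, ‖z - ζ‖ ^ 2 / 2 + (ρ / 2) ^ 2 ≤ ‖z - c‖ ^ 2 := fun z hz => by
    have a1 : ρ ≤ ‖z - (ζ - ρ * ν)‖ := not_lt.1 fun h => disjoint_left.1 hd (mem_ball_iff_norm.2 h) hz
    have a2 := pow_le_pow_left₀ hρ.le a1 2
    have a3 : ‖ν‖ ^ 2 = 1 := by rw [hν, one_pow]
    simp only [Complex.sq_norm, Complex.normSq_apply, hc, Complex.sub_re, Complex.sub_im, Complex.re_ofReal_mul,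
      Complex.im_ofReal_mul] at a2 a3 ⊢
    have a4 : ρ ^ 2 * (ν.re * ν.re + ν.im * ν.im) = ρ ^ 2 := by rw [a3, mul_one]
    nlinarith
  set s := √(r₁ ^ 2 / 2 + (ρ / 2) ^ 2) with hs
  have hs1 : ρ / 2 < s := Real.lt_sqrt_of_sq_lt (by nlinarith)
  set κ := Real.log s - Real.log (ρ / 2) with hκ
  have hκ0 : 0 < κ := sub_pos.2 (Real.log_lt_log h2 hs1)
  have hge : ∀ z ∈ closure D, ρ / 2 ≤ ‖z - c‖ := fun z hz =>
    (pow_le_pow_iff_left₀ h2.le (norm_nonneg _) two_ne_zero).1 (by nlinarith [hsq z hz, sq_nonneg ‖z - ζ‖])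
  have hcn : Continuous fun z : ℂ => ‖z - c‖ := by fun_prop
  have hop : IsOpen (D ∩ ball ζ r₁) := hD.inter isOpen_ball
  have key := maxp hop (isBounded_ball.subset inter_subset_right)
    ((hv.mono (inter_subset_inter_right _ (ball_subset_ball (min_le_left _ _)))).add (hm_log (c := c) hop (fun h => by
      have := hge c (subset_closure h.1)
      simp only [sub_self, norm_zero] at this
      linarith) (-κ⁻¹) (κ⁻¹ * Real.log (ρ / 2)))) fun ζ' hζ' ε hε => by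
    rw [hop.frontier_eq] at hζ'
    have a1 : ζ' ∈ closure D := closure_mono inter_subset_left hζ'.1
    by_cases hD' : ζ' ∈ D
    · have a2 : r₁ ≤ ‖ζ' - ζ‖ := not_lt.1 fun h => hζ'.2 ⟨hD', mem_ball_iff_norm.2 h⟩
      have a3 : s ≤ ‖ζ' - c‖ := Real.sqrt_le_iff.2 ⟨norm_nonneg _, by
        nlinarith [hsq ζ' a1, pow_le_pow_left₀ hr1.le a2 2]⟩
      have hcont : ContinuousAt (fun z => -κ⁻¹ * Real.log ‖z - c‖ + κ⁻¹ * Real.log (ρ / 2)) ζ' :=
        (continuousAt_const.mul (hcn.continuousAt.log (h2.trans_le (hge _ a1)).ne')).add continuousAt_const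
      have a4 := Real.log_le_log (h2.trans hs1) a3
      have a5 : κ⁻¹ * κ ≤ κ⁻¹ * (Real.log ‖ζ' - c‖ - Real.log (ρ / 2)) :=
        mul_le_mul_of_nonneg_left (by linarith) (inv_pos.2 hκ0).le
      rw [inv_mul_cancel₀ hκ0.ne'] at a5
      have := hcont.eventually (gt_mem_nhds (a := -1 + ε) (by simp only; linarith))
      filter_upwards [self_mem_nhdsWithin, this.filter_mono nhdsWithin_le_nhds] with z hz hz'
      have := (abs_lt.1 (hv1 z hz.1 ⟨ζ, hζ, (mem_ball.1 hz.2).trans_le (min_le_right _ _)⟩)).2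
      linarith
    · obtain ⟨δ', hδ', a2⟩ := h0 ε hε
      filter_upwards [self_mem_nhdsWithin, mem_nhdsWithin_of_mem_nhds (ball_mem_nhds ζ' hδ')] with z hz hz'
      have a3 := (abs_lt.1 (a2 z hz.1 ⟨ζ', hD', hz'⟩)).2
      have a4 := mul_le_mul_of_nonneg_left (Real.log_le_log h2 (hge z (subset_closure hz.1))) (inv_pos.2 hκ0).le
      linarith
  refine ⟨κ⁻¹ / (ρ / 2), ?_⟩
  filter_upwards [Ioo_mem_nhdsGT hr1] with t ht htD
  have a1 := key _ ⟨htD, by simpa [hν, abs_of_pos ht.1] using ht.2⟩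
  have e : ‖ζ + t * ν - c‖ = ρ / 2 + t := by
    have : ζ + t * ν - c = ((ρ / 2 + t : ℝ) : ℂ) * ν := by rw [hc]; push_cast; ring
    rw [this, norm_mul, hν, mul_one, Complex.norm_real, Real.norm_eq_abs, abs_of_pos (by linarith [ht.1])]
  have a0 : 0 < ρ / 2 + t := by linarith [ht.1]
  have a4 := Real.log_le_sub_one_of_pos (div_pos a0 h2)
  rw [Real.log_div a0.ne' h2.ne'] at a4
  have a5 := mul_le_mul_of_nonneg_left a4 (inv_pos.2 hκ0).le
  have e' : κ⁻¹ / (ρ / 2) * t = κ⁻¹ * ((ρ / 2 + t) / (ρ / 2) - 1) := by field_simp; ring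
  simp only [e] at a1
  rw [e']
  linarith

theorem hopf {D : Set ℂ} (hD : Nice D) {ζ : ℂ} (hζ : ζ ∈ frontier D) {r : ℝ} (hr : 0 < r)
    (hu : Hm (D ∩ ball ζ r) u) (hv : Hm (D ∩ ball ζ r) v) (h0 : VanB D v)
    (h : ∀ ε > 0, ∀ᶠ z in 𝓝[D] ζ, -(ε * v z) ≤ u z) : ∃ z ∈ D, dist z ζ < r ∧ 0 ≤ u z := by
  by_contra hne
  push Not at hne
  obtain ⟨ρ, hρ, hb⟩ := hD.balls
  obtain ⟨ν, hν, hin, hout⟩ := hb ζ hζ
  have hζD : ζ ∉ D := by rw [hD.isOpen.frontier_eq] at hζ; exact hζ.2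
  obtain ⟨σ, hσ, hσρ, hσr⟩ : ∃ σ > 0, σ ≤ ρ ∧ σ + σ ≤ r :=
    ⟨min ρ (r / 2), lt_min hρ (half_pos hr), min_le_left _ _, by linarith [min_le_right ρ (r / 2)]⟩
  have hd : ∀ s t : ℝ, ‖ζ + s * ν - (ζ + t * ν)‖ = |s - t| := fun s t => by
    have : ζ + s * ν - (ζ + t * ν) = ((s - t : ℝ) : ℂ) * ν := by push_cast; ring
    rw [this, norm_mul, hν, mul_one, Complex.norm_real, Real.norm_eq_abs]
  have hsub : ball (ζ + σ * ν) σ ⊆ D ∩ ball ζ r := subset_inter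
    ((ball_subset_ball' (by rw [dist_eq_norm, hd, abs_of_nonpos (by linarith)]; linarith)).trans hin)
    (ball_subset_ball' (by simpa [dist_eq_norm, hν, abs_of_pos hσ] using hσr))
  obtain ⟨m, hm, h1⟩ := hopf_in hσ (hu.mono hsub) fun z hz => hne z (hsub hz).1 (hsub hz).2
  obtain ⟨C, h2⟩ := hopf_out hD.isOpen hζD hν hρ hr hout hv h0
  have hev : ∀ᶠ t : ℝ in 𝓝[>] 0, t ∈ Ioo 0 (σ / 2) := Ioo_mem_nhdsGT (half_pos hσ)
  have hn : ∀ t ∈ Ioo 0 (σ / 2), ‖ζ + t * ν - (ζ + σ * ν)‖ = σ - t := fun t ht => by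
    rw [hd, abs_of_nonpos (by linarith [ht.2])]; ring
  have hmem : ∀ t ∈ Ioo 0 (σ / 2), ζ + t * ν ∈ D := fun t ht =>
    (hsub (by rw [mem_ball_iff_norm, hn t ht]; linarith [ht.1])).1
  have ht : Tendsto (fun t : ℝ => ζ + t * ν) (𝓝[>] 0) (𝓝[D] ζ) := by
    refine tendsto_nhdsWithin_iff.2 ⟨?_, hev.mono hmem⟩
    have : Continuous fun t : ℝ => ζ + t * ν := by fun_prop
    simpa using (this.tendsto 0).mono_left nhdsWithin_le_nhds
  have hC : 0 < |C| + 1 := by positivity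
  obtain ⟨t, ⟨ht1, ht2⟩, ht3⟩ := ((hev.and h2).and (ht.eventually (h (m / (|C| + 1)) (div_pos hm hC)))).exists
  have a1 := h1 (ζ + t * ν) (by rw [hn t ht1]; linarith [ht1.2]) (by rw [hn t ht1]; linarith [ht1.1])
  rw [hn t ht1] at a1
  have a2 := ht2 (hmem t ht1)
  have a3 : m / (|C| + 1) * v (ζ + t * ν) ≤ m / (|C| + 1) * (|C| * t) :=
    mul_le_mul_of_nonneg_left (a2.trans (mul_le_mul_of_nonneg_right (le_abs_self C) ht1.1.le)) (div_pos hm hC).le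
  have a4 : m / (|C| + 1) * (|C| * t) < m * t := by
    rw [div_mul_eq_mul_div, div_lt_iff₀ hC]
    nlinarith [mul_pos hm ht1.1]
  have e : σ - (σ - t) = t := by ring
  rw [e] at a1
  linarith

end Crest.Agent.R165
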