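import Crest.Agent.R165.CA.Res
import Crest.Agent.R165.CA.Hopf

/-! # R165 block CA: conformal transport (owner helper35) -/

set_option autoImplicit false
set_option linter.unusedVariables false
noncomputable section
open Classical Filter Topology Set Metric

namespace Crest.Agent.R165

variable {D D' : Set ℂ} {φ : ℂ → ℂ} {n : ℕ} {x : Fin n → ℂ}

/-- non-vanishing holomorphic functions have square roots -/
def HasSq (D : Set ℂ) : Prop := ∀ f : ℂ → ℂ, DifferentiableOn ℂ f D → (∀ z ∈ D, f z ≠ 0) →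
  ∃ u : ℂ → ℂ, DifferentiableOn ℂ u D ∧ ∀ z ∈ D, u z ^ 2 = f z

theorem hasSq_ball : HasSq (ball 0 1) := by
  intro f hf h0
  have hd : ∀ z ∈ ball (0 : ℂ) 1, HasDerivAt f (deriv f z) z := fun z hz =>
    (hf.differentiableAt (isOpen_ball.mem_nhds hz)).hasDerivAt
  obtain ⟨g, hg0, hg⟩ := ((hf.deriv isOpen_ball).div hf h0).isExactOn_ball.with_val_at 0 (Complex.log (f 0))
  have h1 : ∀ z ∈ ball (0 : ℂ) 1, HasDerivAt (fun z => f z * Complex.exp (-g z)) 0 z := fun z hz => by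
    refine ((hd z hz).mul (hg z hz).neg.cexp).congr_deriv ?_
    have := h0 z hz
    simp only [Pi.div_apply, Pi.neg_apply]
    field_simp
    ring
  refine ⟨fun z => Complex.exp (g z / 2), fun z hz =>
    ((hg z hz).differentiableAt.div_const 2).cexp.differentiableWithinAt, fun z hz => ?_⟩
  have h2 := isOpen_ball.is_const_of_deriv_eq_zero (𝕜 := ℂ) (convex_ball (0 : ℂ) 1).isPreconnected
    (fun z hz => (h1 z hz).differentiableAt.differentiableWithinAt) (fun z hz => (h1 z hz).deriv) hz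
    (mem_ball_self one_pos)
  have h3 := h0 0 (mem_ball_self one_pos)
  rw [hg0, Complex.exp_neg, Complex.exp_neg, Complex.exp_log h3, mul_inv_cancel₀ h3,
    mul_inv_eq_one₀ (Complex.exp_ne_zero _)] at h2
  rw [h2, sq, ← Complex.exp_add, add_halves]

theorem exists_inv (hD : IsOpen D) (hφ : DifferentiableOn ℂ φ D) (hb : BijOn φ D D') :
    ∃ ψ : ℂ → ℂ, DifferentiableOn ℂ ψ D' ∧ BijOn ψ D' D ∧ (∀ z ∈ D, ψ (φ z) = z) ∧ ∀ w ∈ D', φ (ψ w) = w := by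
  obtain ⟨-, ψ, h1, h2⟩ := Lib.RMT.exists_holomorphic_inverse hD hφ hb.injOn
  rw [hb.image_eq] at h1
  have h3 : ∀ w ∈ D', ψ w ∈ D ∧ φ (ψ w) = w := fun w hw => by
    obtain ⟨z, hz, rfl⟩ := hb.surjOn hw
    rw [h2 z hz]
    exact ⟨hz, rfl⟩
  exact ⟨ψ, h1, InvOn.bijOn (f' := φ) ⟨fun w hw => (h3 w hw).2, h2⟩ (fun w hw => (h3 w hw).1) hb.mapsTo, h2,
    fun w hw => (h3 w hw).2⟩

theorem Nice.hasSq (hD : Nice D) : HasSq D := by
  intro f hf h0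
  obtain ⟨a, ha, hb, -⟩ := hD.riem
  obtain ⟨ψ, h1, h2, h3, -⟩ := exists_inv hD.isOpen ha hb
  obtain ⟨u, hu, hu2⟩ := hasSq_ball (fun w => f (ψ w)) (hf.comp h1 h2.mapsTo) fun w hw => h0 _ (h2.mapsTo hw)
  exact ⟨fun z => u (a z), hu.comp ha hb.mapsTo, fun z hz => by rw [hu2 _ (hb.mapsTo hz), h3 z hz]⟩

theorem sub_mul_dslope (f : ℂ → ℂ) (a b : ℂ) : (b - a) * dslope f a b = f b - f a := sub_smul_dslope f a b

theorem rhoX_eq (x : Fin n → ℂ) (z : ℂ) (i : Fin n) : rhoX x z = (z - x i) * ∏ k ∈ Finset.univ.erase i, (z - x k) :=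
  (Finset.mul_prod_erase Finset.univ (fun k => z - x k) (Finset.mem_univ i)).symm

theorem factor_core (hD : IsOpen D) (hs : HasSq D) (hφ : DifferentiableOn ℂ φ D) (hi : InjOn φ D)
    (hxD : ∀ i, x i ∈ D) : ∃ u : ℂ → ℂ, DifferentiableOn ℂ u D ∧ (∀ z ∈ D, u z ≠ 0) ∧
      ∀ z ∈ D, u z ^ 2 * rhoX (fun i => φ (x i)) (φ z) = deriv φ z * rhoX x z := by
  have h1 : ∀ i, ∀ z ∈ D, dslope φ (x i) z ≠ 0 := fun i z hz => by
    by_cases h : z = x i
    · rw [h, dslope_same]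
      exact Lib.RMT.deriv_ne_zero_of_injOn hD hφ hi (hxD i)
    · intro h0
      have := sub_mul_dslope φ (x i) z
      rw [h0, mul_zero, eq_comm, sub_eq_zero] at this
      exact h (hi hz (hxD i) this)
  have h2 : ∀ z ∈ D, ∏ i, dslope φ (x i) z ≠ 0 := fun z hz => Finset.prod_ne_zero_iff.2 fun i _ => h1 i z hz
  have h3 : ∀ z ∈ D, deriv φ z / ∏ i, dslope φ (x i) z ≠ 0 := fun z hz =>
    div_ne_zero (Lib.RMT.deriv_ne_zero_of_injOn hD hφ hi hz) (h2 z hz)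
  obtain ⟨u, hu, hu2⟩ := hs (fun z => deriv φ z / ∏ i, dslope φ (x i) z) ((hφ.deriv hD).div
    (DifferentiableOn.fun_finsetProd fun i _ => (Complex.differentiableOn_dslope (hD.mem_nhds (hxD i))).2 hφ) h2) h3
  refine ⟨u, hu, fun z hz h0 => h3 z hz (by rw [← hu2 z hz, h0]; simp), fun z hz => ?_⟩
  have e : rhoX (fun i => φ (x i)) (φ z) = rhoX x z * ∏ i, dslope φ (x i) z := by
    unfold rhoX
    rw [← Finset.prod_mul_distrib]
    exact Finset.prod_congr rfl fun i _ => (sub_mul_dslope φ (x i) z).symm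
  rw [hu2 z hz, e]
  have := h2 z hz
  field_simp

/-- the defining relation of the factor divided by `z - x i` -/
theorem factor_eq (hD : IsOpen D) (hφ : DifferentiableOn ℂ φ D) (hxD : ∀ i, x i ∈ D) {u : ℂ → ℂ}
    (hu : DifferentiableOn ℂ u D) (huu : ∀ z ∈ D, u z ^ 2 * rhoX (fun i => φ (x i)) (φ z) = deriv φ z * rhoX x z)
    (i : Fin n) : ∀ z ∈ D, u z ^ 2 * (dslope φ (x i) z * ∏ k ∈ Finset.univ.erase i, (φ z - φ (x k))) =
      deriv φ z * ∏ k ∈ Finset.univ.erase i, (z - x k) := by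
  have h1 : ∀ z ∈ D, z ≠ x i → u z ^ 2 * (dslope φ (x i) z * ∏ k ∈ Finset.univ.erase i, (φ z - φ (x k))) =
      deriv φ z * ∏ k ∈ Finset.univ.erase i, (z - x k) := fun z hz hne => by
    have := huu z hz
    rw [rhoX_eq _ _ i, rhoX_eq _ _ i, ← sub_mul_dslope φ (x i) z] at this
    refine mul_left_cancel₀ (sub_ne_zero.2 hne) ?_
    linear_combination this
  intro z hz
  by_cases h : z = x i
  swap
  · exact h1 z hz h
  subst h
  have hn := hD.mem_nhds hz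
  have hφc : ContinuousAt φ (x i) := hφ.continuousOn.continuousAt hn
  have hA : ContinuousAt (fun z => u z ^ 2 * (dslope φ (x i) z * ∏ k ∈ Finset.univ.erase i, (φ z - φ (x k)))) (x i) :=
    ((hu.continuousOn.continuousAt hn).pow 2).mul ((continuousAt_dslope_same.2 (hφ.differentiableAt hn)).mul
      (tendsto_finsetProd _ fun k _ => hφc.sub continuousAt_const))
  have hB : ContinuousAt (fun z => deriv φ z * ∏ k ∈ Finset.univ.erase i, (z - x k)) (x i) :=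
    ((hφ.deriv hD).continuousOn.continuousAt hn).mul (by fun_prop)
  refine tendsto_nhds_unique_of_eventuallyEq (l := 𝓝[≠] (x i)) (hA.tendsto.mono_left nhdsWithin_le_nhds)
    (hB.tendsto.mono_left nhdsWithin_le_nhds) ?_
  filter_upwards [self_mem_nhdsWithin, mem_nhdsWithin_of_mem_nhds hn] with z hz1 hz2 using h1 z hz2 hz1

theorem pull_cSq (hD : IsOpen D) (hφ : DifferentiableOn ℂ φ D) (hi : InjOn φ D) (hx : Function.Injective x)
    (hxD : ∀ i, x i ∈ D) {u : ℂ → ℂ} (hu : DifferentiableOn ℂ u D)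
    (huu : ∀ z ∈ D, u z ^ 2 * rhoX (fun i => φ (x i)) (φ z) = deriv φ z * rhoX x z) (g : ℂ → ℂ) (i : Fin n) :
    cSq x (fun z => u z * g (φ z)) i = cSq (fun i => φ (x i)) g i := by
  have h1 := factor_eq hD hφ hxD hu huu i (x i) (hxD i)
  rw [dslope_same] at h1
  have h2 := Lib.RMT.deriv_ne_zero_of_injOn hD hφ hi (hxD i)
  have h3 : ∏ k ∈ Finset.univ.erase i, (x i - x k) ≠ 0 := Finset.prod_ne_zero_iff.2 fun k hk =>
    sub_ne_zero.2 fun h => (Finset.mem_erase.1 hk).1 (hx h).symm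
  have h4 : ∏ k ∈ Finset.univ.erase i, (φ (x i) - φ (x k)) ≠ 0 := Finset.prod_ne_zero_iff.2 fun k hk =>
    sub_ne_zero.2 fun h => (Finset.mem_erase.1 hk).1 (hx (hi (hxD i) (hxD k) h)).symm
  unfold cSq
  rw [div_eq_div_iff h3 h4]
  refine mul_left_cancel₀ h2 ?_
  linear_combination g (φ (x i)) ^ 2 * h1

theorem near_pull (hD : IsOpen D) (hφ : DifferentiableOn ℂ φ D) (hb : BijOn φ D D') (hD' : Bornology.IsBounded D')
    {δ' : ℝ} (hδ : 0 < δ') :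
    ∃ δ > 0, ∀ z ∈ D, (∃ ζ, ζ ∉ D ∧ dist z ζ < δ) → ∃ ζ, ζ ∉ D' ∧ dist (φ z) ζ < δ' := by
  obtain ⟨ψ, h1, h2, h3, -⟩ := exists_inv hD hφ hb
  have hsub : {w | ∀ ζ, ζ ∉ D' → δ' ≤ dist w ζ} ⊆ D' := fun w hw => by
    by_contra h
    have := hw w h
    rw [dist_self] at this
    linarith
  have hcl : IsClosed {w | ∀ ζ, ζ ∉ D' → δ' ≤ dist w ζ} := by
    simp only [ofPred_forall]
    exact isClosed_iInter fun ζ => isClosed_iInter fun _ => isClosed_le continuous_const (by fun_prop)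
  have hK := (Metric.isCompact_of_isClosed_isBounded hcl (hD'.subset hsub)).image_of_continuousOn
    (h1.continuousOn.mono hsub)
  obtain ⟨δ, hδ, hth⟩ := hK.exists_thickening_subset_open hD (by
    rintro _ ⟨w, hw, rfl⟩
    exact h2.mapsTo (hsub hw))
  refine ⟨δ, hδ, fun z hz ⟨ζ, hζ, hd⟩ => ?_⟩
  by_contra hne
  push Not at hne
  exact hζ (hth (mem_thickening_iff.2 ⟨z, ⟨φ z, hne, h3 z hz⟩, by rwa [dist_comm]⟩))

theorem VanB.pull (hD : IsOpen D) (hφ : DifferentiableOn ℂ φ D) (hb : BijOn φ D D') (hD' : Bornology.IsBounded D')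
    {h : ℂ → ℝ} (hv : VanB D' h) : VanB D fun z => h (φ z) := fun ε hε => by
  obtain ⟨δ', hδ', h1⟩ := hv ε hε
  obtain ⟨δ, hδ, h2⟩ := near_pull hD hφ hb hD' hδ'
  exact ⟨δ, hδ, fun z hz h3 => h1 _ (hb.mapsTo hz) (h2 z hz h3)⟩

theorem hasF_comp {h : ℂ → ℝ} {a b z : ℂ} (h1 : HasFDerivAt h (reM a) (φ z)) (h2 : HasDerivAt φ b z) :
    HasFDerivAt (fun z => h (φ z)) (reM (a * b)) z := by
  refine (h1.comp z (h2.hasFDerivAt.restrictScalars ℝ)).congr_fderiv ?_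
  ext v; simp [reM_apply]; ring

/-- everything except the sign condition -/
theorem pull_core (hD : IsOpen D) (hDb : Bornology.IsBounded D) (hD' : Bornology.IsBounded D')
    (hφ : DifferentiableOn ℂ φ D) (hb : BijOn φ D D') (hxD : ∀ i, x i ∈ D) {u : ℂ → ℂ} (hu : DifferentiableOn ℂ u D)
    (huu : ∀ z ∈ D, u z ^ 2 * rhoX (fun i => φ (x i)) (φ z) = deriv φ z * rhoX x z) {Y : Set ℂ} (hY : Y ⊆ D)
    {g : ℂ → ℂ} (hg : RH D' (fun i => φ (x i)) (φ '' Y) g)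
    (hs : ∀ h : ℂ → ℝ, Hm (D' \ (φ '' Y ∪ range fun i => φ (x i))) h → VanB D' h → SgnB D' h →
      SgnB D fun z => h (φ z)) : RH D x Y fun z => u z * g (φ z) := by
  have hm : MapsTo φ (D \ Y) (D' \ φ '' Y) := fun z hz => ⟨hb.mapsTo hz.1, fun ⟨y, hy, e⟩ =>
    hz.2 (hb.injOn (hY hy) hz.1 e ▸ hy)⟩
  obtain ⟨h, a1, a2, a3⟩ := hg.pot
  refine ⟨(hu.mono sdiff_subset).mul (hg.hol.comp (hφ.mono sdiff_subset) hm), ⟨fun z => h (φ z), fun z hz hx => ?_,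
    VanB.pull hD hφ hb hD' a2, hs h ⟨_, gd_of_pot hg.hol a1⟩ a2 a3⟩, ?_⟩
  · have hx' : ∀ i, φ z ≠ φ (x i) := fun i e => hx i (hb.injOn hz.1 (hxD i) e)
    have b1 := hasF_comp (a1 _ (hm hz) hx') (hφ.differentiableAt (hD.mem_nhds hz.1)).hasDerivAt
    have b2 : rhoX x z ≠ 0 := Finset.prod_ne_zero_iff.2 fun i _ => sub_ne_zero.2 (hx i)
    have b3 : rhoX (fun i => φ (x i)) (φ z) ≠ 0 := Finset.prod_ne_zero_iff.2 fun i _ => sub_ne_zero.2 (hx' i)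
    have e : -(g (φ z) ^ 2 / rhoX (fun i => φ (x i)) (φ z)) * deriv φ z = -((u z * g (φ z)) ^ 2 / rhoX x z) := by
      field_simp
      linear_combination (g (φ z) ^ 2) * huu z hz.1
    rw [e] at b1
    exact b1
  · obtain ⟨R, hR⟩ := hDb.subset_ball 0
    exact ⟨0, R, fun z hz h => absurd (mem_ball_zero_iff.1 (hR hz)) (not_lt.2 h)⟩

/-- the Riemann map and its inverse -/
theorem Nice.riem' (hD : Nice D) : ∃ a ψ : ℂ → ℂ, DifferentiableOn ℂ a D ∧ BijOn a D (ball 0 1) ∧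
    DifferentiableOn ℂ ψ (ball 0 1) ∧ BijOn ψ (ball 0 1) D ∧ (∀ z ∈ D, ψ (a z) = z) ∧ (∀ w ∈ ball (0 : ℂ) 1, a (ψ w) = w) ∧
    ∀ h : ℂ → ℝ, SgnB D h → SgnB (ball 0 1) fun w => h (ψ w) := by
  obtain ⟨a, ha, hb, hl⟩ := hD.riem
  obtain ⟨ψ, h1, h2, h3, h4⟩ := exists_inv hD.isOpen ha hb
  refine ⟨a, ψ, ha, hb, h1, h2, h3, h4, fun h hs ω hω r hr => ?_⟩
  have : (𝓝[ball 0 1] ω).NeBot := mem_closure_iff_nhdsWithin_neBot.1 (frontier_subset_closure hω)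
  obtain ⟨ζ, hζ, hc⟩ := hD.bdd.isCompact_closure.exists_mapClusterPt (f := 𝓝[ball 0 1] ω) (u := ψ) (by
    rw [le_principal_iff, mem_map]
    filter_upwards [self_mem_nhdsWithin] with w hw using subset_closure (h2.mapsTo hw))
  have key : ∀ ζ', Tendsto a (𝓝[D] ζ) (𝓝 ζ') → ζ' = ω := fun ζ' ht => by
    have : (𝓝[ball 0 1] ω ⊓ comap ψ (𝓝 ζ)).NeBot := by
      rw [inf_comm]; exact Filter.neBot_inf_comap_iff_map'.2 hc
    have b0 : ∀ᶠ w in 𝓝[ball 0 1] ω ⊓ comap ψ (𝓝 ζ), w ∈ ball (0 : ℂ) 1 := mem_inf_of_left self_mem_nhdsWithin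
    have b1 : Tendsto ψ (𝓝[ball 0 1] ω ⊓ comap ψ (𝓝 ζ)) (𝓝[D] ζ) :=
      tendsto_nhdsWithin_iff.2 ⟨tendsto_comap.mono_left inf_le_right, b0.mono fun w hw => h2.mapsTo hw⟩
    exact tendsto_nhds_unique_of_eventuallyEq (ht.comp b1)
      (tendsto_id.mono_left (inf_le_left.trans nhdsWithin_le_nhds)) (b0.mono fun w hw => h4 w hw)
  have hζD : ζ ∉ D := fun hz => by
    rw [isOpen_ball.frontier_eq] at hω
    exact hω.2 (key _ (ha.continuousOn ζ hz) ▸ hb.mapsTo hz)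
  have hfr : ζ ∈ frontier D := by rw [hD.isOpen.frontier_eq]; exact ⟨hζ, hζD⟩
  obtain ⟨ζ', ht⟩ := hl ζ hfr
  rw [key ζ' ht] at ht
  obtain ⟨r', hr', b⟩ := Metric.mem_nhdsWithin_iff.1 (ht (ball_mem_nhds ω hr))
  obtain ⟨z, hz, b1, b2⟩ := hs ζ hfr r' hr'
  exact ⟨a z, hb.mapsTo hz, b ⟨b1, hz⟩, by simpa [h3 z hz] using b2⟩

theorem near_ann (hD : IsOpen D) (hφ : DifferentiableOn ℂ φ D) (hb : BijOn φ D (ball 0 1)) {r : ℝ} (hr : r < 1) :
    ∃ δ > 0, ∀ z ∈ D, (∃ ζ, ζ ∉ D ∧ dist z ζ < δ) → φ z ∈ Ann r := by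
  obtain ⟨δ, hδ, h⟩ := near_pull hD hφ hb isBounded_ball (sub_pos.2 hr)
  refine ⟨δ, hδ, fun z hz h1 => ⟨?_, mem_ball_zero_iff.1 (hb.mapsTo hz)⟩⟩
  obtain ⟨ζ, h2, h3⟩ := h z hz h1
  rw [mem_ball_zero_iff, not_lt] at h2
  have := abs_lt.1 ((abs_norm_sub_norm_le (φ z) ζ).trans_lt (by rwa [← dist_eq_norm]))
  linarith

theorem vanB_log : VanB (ball 0 1) fun w => -1 * Real.log ‖w‖ := fun ε hε => by
  have h1 : Real.exp (-ε) < 1 := Real.exp_lt_one_iff.2 (by linarith)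
  obtain ⟨δ, hδ, h⟩ := near_ann (φ := id) isOpen_ball differentiableOn_id (bijOn_id _) h1
  refine ⟨δ, hδ, fun z hz h2 => ?_⟩
  obtain ⟨a1, a2⟩ := h z hz h2
  simp only [id] at a1 a2
  have a3 := Real.log_lt_log (Real.exp_pos _) a1
  have a4 := Real.log_neg ((Real.exp_pos _).trans a1) a2
  rw [Real.log_exp] at a3
  exact abs_lt.2 ⟨by linarith, by linarith⟩

theorem sgn_pull (hD : Nice D) (hD' : Nice D') (hφ : DifferentiableOn ℂ φ D) (hb : BijOn φ D D') {S : Set ℂ}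
    (hS : S.Finite) (hSD : S ⊆ D') {h : ℂ → ℝ} (h1 : Hm (D' \ S) h) (h2 : VanB D' h) (h3 : SgnB D' h) :
    SgnB D fun z => h (φ z) := by
  obtain ⟨b, ψ, hb1, hb2, hψ1, hψ2, hψb, hbψ, hsg⟩ := hD'.riem'
  have := hS.to_subtype
  obtain ⟨r₁, hr₁, hr₁'⟩ := exists_lt_one (fun s : S => ‖b s‖) fun s => mem_ball_zero_iff.1 (hb2.mapsTo (hSD s.2))
  have hm : MapsTo ψ (Ann r₁) (D' \ S) := fun w hw => by
    have hw' : w ∈ ball (0 : ℂ) 1 := mem_ball_zero_iff.2 hw.2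
    refine ⟨hψ2.mapsTo hw', fun h => ?_⟩
    have := hr₁' ⟨_, h⟩
    simp only [hbψ w hw'] at this
    exact absurd hw.1 (not_lt.2 this)
  obtain ⟨F, hF⟩ := h1
  have hH : Hm (Ann r₁) fun w => h (ψ w) :=
    ⟨_, hF.comp (isOpen_Ann _) (hψ1.mono fun w hw => mem_ball_zero_iff.2 hw.2) hm⟩
  have hlow := disc_lower hr₁ hH (VanB.pull isOpen_ball hψ1 hψ2 hD'.bdd h2) (hsg h h3)
  have hB1 : DifferentiableOn ℂ (fun z => b (φ z)) D := hb1.comp hφ hb.mapsTo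
  have hB2 : BijOn (fun z => b (φ z)) D (ball 0 1) := hb2.comp hb
  have e : ∀ z ∈ D, h (ψ (b (φ z))) = h (φ z) := fun z hz => by rw [hψb _ (hb.mapsTo hz)]
  intro ζ hζ r hr
  have hζD : ζ ∉ D := by rw [hD.isOpen.frontier_eq] at hζ; exact hζ.2
  obtain ⟨δ, hδ, hnear⟩ := near_ann hD.isOpen hB1 hB2 (max_lt hr₁ one_pos : max r₁ 0 < 1)
  have hA : ∀ z ∈ D ∩ ball ζ (min r δ), b (φ z) ∈ Ann (max r₁ 0) := fun z hz =>
    hnear z hz.1 ⟨ζ, hζD, (mem_ball.1 hz.2).trans_le (min_le_right _ _)⟩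
  have hop : IsOpen (D ∩ ball ζ (min r δ)) := hD.isOpen.inter isOpen_ball
  have hu : Hm (D ∩ ball ζ (min r δ)) fun z => h (φ z) := ⟨_, hF.comp hop (hφ.mono inter_subset_left) fun z hz => by
    have := hm (ann_sub (le_max_left _ _) (hA z hz))
    rwa [hψb _ (hb.mapsTo hz.1)] at this⟩
  have hv : Hm (D ∩ ball ζ (min r δ)) fun z => -1 * Real.log ‖b (φ z)‖ :=
    Hm.cmul ⟨_, Gd.log_norm hop (hB1.mono inter_subset_left) fun z hz =>
      norm_pos_iff.1 ((le_max_right _ _).trans_lt (hA z hz).1)⟩ _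
  obtain ⟨z, hz, a1, a2⟩ := hopf hD hζ (lt_min hr hδ) hu hv
    (VanB.pull hD.isOpen hB1 hB2 isBounded_ball vanB_log) fun ε hε => by
      obtain ⟨r₂, hr₂, a⟩ := hlow ε hε
      obtain ⟨δ₂, hδ₂, hnear₂⟩ := near_ann hD.isOpen hB1 hB2 hr₂
      filter_upwards [self_mem_nhdsWithin, mem_nhdsWithin_of_mem_nhds (ball_mem_nhds ζ hδ₂)] with z hz hz'
      have := a _ (hnear₂ z hz ⟨ζ, hζD, hz'⟩)
      rw [e z hz] at this
      linarith
  exact ⟨z, hz, a1.trans_le (min_le_left _ _), a2⟩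

end Crest.Agent.R165
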