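import Crest.Agent.R165.CA.Disc

/-! # R165 block CA: residues, uniqueness in the disc and in the plane (owner helper35) -/

set_option autoImplicit false
set_option linter.unusedVariables false
noncomputable section
open Classical Filter Topology Set Metric

namespace Crest.Agent.R165

variable {n : ℕ} {x : Fin n → ℂ}

theorem exists_lt_one {ι : Type} [Finite ι] (f : ι → ℝ) (h : ∀ i, f i < 1) : ∃ r < 1, ∀ i, f i ≤ r := by
  have h1 : ∀ᶠ r in 𝓝[<] (1 : ℝ), ∀ i, f i ≤ r :=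
    eventually_all.2 fun i => (Ioo_mem_nhdsLT (h i) : Ioo (f i) 1 ∈ _) |> fun h => mem_of_superset h fun r hr => hr.1.le
  obtain ⟨r, h2, h3⟩ := (h1.and self_mem_nhdsWithin).exists
  exact ⟨r, h3, h2⟩

theorem differentiable_rhoX (x : Fin n → ℂ) : Differentiable ℂ (rhoX x) := by
  unfold rhoX
  fun_prop

/-- Residues.  `n = 0`: Cauchy.  Otherwise partial fractions `1 / ρ z = ∑ i, (∏_{k ≠ i} (x i - x k))⁻¹ (z - x i)⁻¹`
(`Lagrange.eval_interpolate_not_at_node` with `Lagrange.interpolate_one`, `Lagrange.eval_nodal`, `nodalWeight`) and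
`DiffContOnCl.circleIntegral_sub_inv_smul`. -/
theorem circle_res (hx : Function.Injective x) {R : ℝ} (hR : 0 < R) (hxR : ∀ i, ‖x i‖ < R) {N : ℂ → ℂ}
    (hN : DifferentiableOn ℂ N (closedBall 0 R)) :
    (∮ z in C(0, R), N z / rhoX x z) =
      2 * Real.pi * Complex.I * ∑ i, N (x i) / ∏ k ∈ Finset.univ.erase i, (x i - x k) := by
  have hN' : DiffContOnCl ℂ N (ball 0 R) := (hN.mono closure_ball_subset_closedBall).diffContOnCl
  rcases n.eq_zero_or_pos with rfl | hn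
  · simpa [rhoX] using hN'.circleIntegral_eq_zero hR.le
  have hne : ∀ z ∈ sphere (0 : ℂ) R, ∀ i, z ≠ x i := fun z hz i e =>
    (hxR i).ne (by rw [← e]; simpa using hz)
  have e : EqOn (fun z => N z / rhoX x z) (fun z => ∑ i, (∏ k ∈ Finset.univ.erase i, (x i - x k))⁻¹ *
      ((z - x i)⁻¹ • N z)) (sphere 0 R) := fun z hz => by
    have h1 := Lagrange.eval_interpolate_not_at_node (s := Finset.univ) (v := x) 1 (x := z) fun i _ => hne z hz i
    rw [Lagrange.interpolate_one hx.injOn ⟨⟨0, hn⟩, Finset.mem_univ _⟩, Lagrange.eval_nodal, Polynomial.eval_one] at h1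
    have h2 : rhoX x z ≠ 0 := Finset.prod_ne_zero_iff.2 fun i _ => sub_ne_zero.2 (hne z hz i)
    simp only
    rw [div_eq_iff h2]
    calc N z = N z * 1 := (mul_one _).symm
      _ = _ := by
        rw [h1, mul_left_comm, mul_comm, Finset.mul_sum]
        congr 1
        refine Finset.sum_congr rfl fun i _ => ?_
        simp only [Lagrange.nodalWeight, Finset.prod_inv_distrib, Pi.one_apply, smul_eq_mul]
        ring
  rw [circleIntegral.integral_congr hR.le e, circleIntegral.integral_fun_sum, Finset.mul_sum]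
  · refine Finset.sum_congr rfl fun i _ => ?_
    rw [circleIntegral.integral_const_mul, hN'.circleIntegral_sub_inv_smul (mem_ball_zero_iff.2 (hxR i)), smul_eq_mul]
    ring
  · intro i _
    have h1 : ContinuousOn (fun z => (z - x i)⁻¹) (sphere 0 R) :=
      ContinuousOn.inv₀ (by fun_prop) fun z hz => sub_ne_zero.2 (hne z hz i)
    exact ContinuousOn.circleIntegrable hR.le (continuousOn_const.mul (h1.smul
      (hN.continuousOn.mono sphere_subset_closedBall)))

/-- `c = s²`, `‖w²‖ - Re w² = 2 (Im w)²` for `w = s a` -/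
theorem defect_sum {m : ℕ} (t : Fin m → ℝ) (a : Fin m → ℂ) (c : ℂ) {ε : ℝ} (hε : 0 ≤ ε)
    (h : ∀ k, ‖c * a k ^ 2‖ - (c * a k ^ 2).re ≤ ε) :
    ‖c * (∑ k, (t k : ℂ) * a k) ^ 2‖ - (c * (∑ k, (t k : ℂ) * a k) ^ 2).re ≤ (∑ k, |t k|) ^ 2 * ε := by
  obtain ⟨s, rfl⟩ := IsAlgClosed.exists_pow_nat_eq c two_pos
  have e : ∀ w : ℂ, ‖s ^ 2 * w ^ 2‖ - (s ^ 2 * w ^ 2).re = 2 * (s * w).im ^ 2 := fun w => by
    rw [← mul_pow, norm_pow, Complex.sq_norm, Complex.normSq_apply]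
    generalize s * w = v
    rw [sq v, Complex.mul_re]
    ring
  simp only [e] at h ⊢
  have h1 : ∀ k, |(s * a k).im| ≤ √(ε / 2) := fun k => Real.abs_le_sqrt (by linarith [h k])
  have h2 : |(s * ∑ k, (t k : ℂ) * a k).im| ≤ (∑ k, |t k|) * √(ε / 2) := by
    rw [Finset.mul_sum, Complex.im_sum, Finset.sum_mul]
    refine (Finset.abs_sum_le_sum_abs _ _).trans (Finset.sum_le_sum fun k _ => ?_)
    rw [mul_left_comm, Complex.im_ofReal_mul, abs_mul]
    exact mul_le_mul_of_nonneg_left (h1 k) (abs_nonneg _)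
  have h3 := pow_le_pow_left₀ (abs_nonneg _) h2 2
  rw [sq_abs, mul_pow, Real.sq_sqrt (by positivity)] at h3
  linarith

/-- `Complex.differentiableOn_update_limUnder_of_isLittleO` -/
theorem removable {D : Set ℂ} (hD : IsOpen D) {y : ℂ} (hy : y ∈ D) {g : ℂ → ℂ} (hg : DifferentiableOn ℂ g (D \ {y}))
    (hp : Tendsto (fun z => (z - y) * g z) (𝓝[≠] y) (𝓝 0)) :
    ∃ g' : ℂ → ℂ, DifferentiableOn ℂ g' D ∧ ∀ z, z ≠ y → g' z = g z := by
  refine ⟨_, Complex.differentiableOn_update_limUnder_of_isLittleO (hD.mem_nhds hy) hg ?_,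
    fun z hz => Function.update_of_ne hz _ _⟩
  refine Asymptotics.isLittleO_of_tendsto' ?_ ?_
  · filter_upwards [self_mem_nhdsWithin] with z hz h using absurd (inv_eq_zero.1 h) (sub_ne_zero.2 hz)
  · have h1 : Tendsto (fun z => (z - y) * g y) (𝓝[≠] y) (𝓝 0) := by
      have : Continuous fun z => (z - y) * g y := by fun_prop
      simpa using (this.tendsto y).mono_left nhdsWithin_le_nhds
    have h2 := hp.sub h1
    rw [sub_zero] at h2
    refine h2.congr fun z => ?_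
    rw [div_inv_eq_mul]
    ring

/-- For `R` close to `1`: `∫ θ in 0..2π, G (R e^{iθ}) = 2π ∑ cSq` with `G z = z / ρ z * g z ^ 2` (`circle_res`, unfold
`circleIntegral`, `deriv_circleMap`), so `∫ ‖G‖ ≤ ∫ Re G + 2π ε ≤ 2π ε`; Cauchy's formula for `g ^ 2` at `z₀`:
`‖g z₀ ^ 2‖ ≤ (2π)⁻¹ ∫ ‖G‖ ‖ρ‖ / (R - ‖z₀‖)`, `‖ρ‖ ≤ 2 ^ n`. -/
theorem disc_zero (hx : Function.Injective x) (hxD : ∀ i, ‖x i‖ < 1) {g : ℂ → ℂ}
    (hg : DifferentiableOn ℂ g (ball 0 1)) (hc : ∀ i, BrOK x g i)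
    (hd : ∀ ε > 0, ∃ r < 1, ∀ z ∈ Ann r, ‖z / rhoX x z * g z ^ 2‖ - (z / rhoX x z * g z ^ 2).re ≤ ε) :
    ∀ z ∈ ball (0 : ℂ) 1, g z = 0 := by
  intro z₀ hz₀
  have hz₁ : ‖z₀‖ < 1 := mem_ball_zero_iff.1 hz₀
  obtain ⟨r₁, hr₁, h1⟩ := exists_lt_one (fun i => ‖x i‖) hxD
  set C : ℝ := 2 ^ n / ((1 - ‖z₀‖) / 2) with hC
  have hd0 : 0 < (1 - ‖z₀‖) / 2 := by linarith
  have hC0 : 0 < C := by positivity
  suffices h : ∀ ε > 0, ‖g z₀ ^ 2‖ ≤ C * ε by
    have : ‖g z₀ ^ 2‖ ≤ 0 := le_of_forall_pos_le_add fun ε hε => by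
      simpa [mul_div_cancel₀ _ hC0.ne'] using h (ε / C) (div_pos hε hC0)
    simpa using this
  intro ε hε
  obtain ⟨r, hr, h2⟩ := hd ε hε
  obtain ⟨R, hR1, hR2⟩ := exists_between (max_lt (max_lt hr hr₁) (by linarith) : max (max r r₁) ((1 + ‖z₀‖) / 2) < 1)
  simp only [max_lt_iff] at hR1
  obtain ⟨⟨a1, a2⟩, a3⟩ := hR1
  have hR0 : 0 < R := by linarith [norm_nonneg z₀]
  have hxR : ∀ i, ‖x i‖ < R := fun i => (h1 i).trans_lt a2
  have hN : DifferentiableOn ℂ (fun z => g z ^ 2) (closedBall 0 R) := (hg.mono (closedBall_subset_ball hR2)).pow 2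
  have hn : ∀ θ, ‖circleMap 0 R θ‖ = R := fun θ => by simp [abs_of_pos hR0]
  have hρ : ∀ θ, rhoX x (circleMap 0 R θ) ≠ 0 := fun θ =>
    Finset.prod_ne_zero_iff.2 fun i _ => sub_ne_zero.2 fun e => (hxR i).ne (by rw [← e, hn])
  set G : ℝ → ℂ := fun θ => circleMap 0 R θ / rhoX x (circleMap 0 R θ) * g (circleMap 0 R θ) ^ 2 with hG
  have hGc : Continuous G :=
    ((continuous_circleMap 0 R).div ((differentiable_rhoX x).continuous.comp (continuous_circleMap 0 R)) hρ).mul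
      (hN.continuousOn.comp_continuous (continuous_circleMap 0 R) fun θ => mem_closedBall_zero_iff.2 (hn θ).le)
  have hI : ∫ θ in (0 : ℝ)..2 * Real.pi, G θ = 2 * Real.pi * ∑ i, cSq x g i := by
    have := circle_res hx hR0 hxR hN
    have e : (∮ z in C(0, R), g z ^ 2 / rhoX x z) = Complex.I * ∫ θ in (0 : ℝ)..2 * Real.pi, G θ := by
      rw [← intervalIntegral.integral_const_mul, circleIntegral]
      refine intervalIntegral.integral_congr fun θ _ => ?_
      simp only [deriv_circleMap, smul_eq_mul, hG]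
      ring
    rw [e] at this
    refine mul_left_cancel₀ Complex.I_ne_zero ?_
    rw [this]
    unfold cSq
    ring
  have hRe : ∫ θ in (0 : ℝ)..2 * Real.pi, (G θ).re ≤ 0 := by
    have := Complex.reCLM.intervalIntegral_comp_comm (hGc.intervalIntegrable (μ := MeasureTheory.volume) 0 (2 * Real.pi))
    simp only [Complex.reCLM_apply] at this
    rw [this, hI]
    have e : (2 * (Real.pi : ℂ) * ∑ i, cSq x g i).re = 2 * Real.pi * ∑ i, (cSq x g i).re := by
      rw [← Complex.re_sum, ← Complex.re_ofReal_mul]; push_cast; rfl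
    rw [e]
    exact mul_nonpos_of_nonneg_of_nonpos (by positivity) (Finset.sum_nonpos fun i _ => (hc i).2)
  have hcau := ((hN.mono closure_ball_subset_closedBall).diffContOnCl).circleIntegral_sub_inv_smul
    (w := z₀) (mem_ball_zero_iff.2 (by linarith))
  have hre : Continuous fun θ => (G θ).re := Complex.continuous_re.comp hGc
  have hb : ‖∮ z in C(0, R), (z - z₀)⁻¹ • g z ^ 2‖ ≤ ∫ θ in (0 : ℝ)..2 * Real.pi, C * ((G θ).re + ε) := by
    refine intervalIntegral.norm_integral_le_of_norm_le (by positivity) (Eventually.of_forall fun θ _ => ?_)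
      ((continuous_const.mul (hre.add continuous_const)).intervalIntegrable _ _)
    have b1 : ‖G θ‖ ≤ (G θ).re + ε := by
      have := h2 (circleMap 0 R θ) ⟨by rwa [hn], by rwa [hn]⟩
      simp only [hG]
      linarith
    have b2 : (1 - ‖z₀‖) / 2 ≤ ‖circleMap 0 R θ - z₀‖ := by
      have := norm_sub_norm_le (circleMap 0 R θ) z₀
      rw [hn] at this
      linarith
    have b3 : ‖rhoX x (circleMap 0 R θ)‖ ≤ 2 ^ n := by
      rw [rhoX, norm_prod]
      refine (Finset.prod_le_prod (g := fun _ => 2) (fun _ _ => norm_nonneg _) fun i _ => ?_).trans_eq (by simp)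
      have := norm_sub_le (circleMap 0 R θ) (x i)
      rw [hn] at this
      linarith [hxD i]
    have e : deriv (circleMap 0 R) θ • (circleMap 0 R θ - z₀)⁻¹ • g (circleMap 0 R θ) ^ 2 =
        Complex.I * (rhoX x (circleMap 0 R θ) / (circleMap 0 R θ - z₀)) * G θ := by
      have := hρ θ
      simp only [deriv_circleMap, smul_eq_mul, hG]
      field_simp
    rw [e, norm_mul, norm_mul, Complex.norm_I, one_mul, norm_div]
    exact mul_le_mul (div_le_div₀ (by positivity) b3 hd0 b2) b1 (norm_nonneg _) hC0.le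
  rw [hcau, intervalIntegral.integral_const_mul, intervalIntegral.integral_add (hre.intervalIntegrable _ _)
    (continuous_const.intervalIntegrable _ _), intervalIntegral.integral_const, norm_smul] at hb
  simp only [norm_mul, Complex.norm_I, Complex.norm_real, Real.norm_eq_abs, abs_of_pos Real.pi_pos, mul_one,
    Complex.norm_ofNat, sub_zero, smul_eq_mul] at hb
  refine le_of_mul_le_mul_left (hb.trans ?_) (by positivity)
  nlinarith [mul_nonpos_of_nonneg_of_nonpos hC0.le hRe]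

theorem rho_bounds (x : Fin n → ℂ) : ∃ R > 0, ∀ z : ℂ, R ≤ ‖z‖ → (‖z‖ / 2) ^ n ≤ ‖rhoX x z‖ ∧ ‖rhoX x z‖ ≤ (2 * ‖z‖) ^ n := by
  obtain ⟨B, hB⟩ := Finite.exists_le fun i => ‖x i‖
  refine ⟨max (2 * B) 1, lt_max_of_lt_right one_pos, fun z hz => ?_⟩
  have h1 := (le_max_left _ _).trans hz
  rw [rhoX, norm_prod]
  constructor
  · refine le_trans (by rw [Finset.prod_const, Finset.card_fin]) (Finset.prod_le_prod (s := Finset.univ) (f := fun _ : Fin n => ‖z‖ / 2)
      (fun _ _ => by positivity) fun i _ => ?_)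
    linarith [norm_sub_norm_le z (x i), hB i]
  · refine (Finset.prod_le_prod (g := fun _ => 2 * ‖z‖) (fun _ _ => norm_nonneg _) fun i _ => ?_).trans_eq
      (by rw [Finset.prod_const, Finset.card_fin])
    linarith [norm_sub_le z (x i), hB i, norm_nonneg z]

/-- Improved growth.  `n = 2 m`, `‖ρ z‖ ≍ ‖z‖ ^ n`; `G w = w ^ m * g w⁻¹` has `‖G w‖ ^ 2 ≤ C ‖w‖` near `0`, so the
singularity is removable with value `0` and `‖G w‖ ≤ C' ‖w‖`. -/
theorem plane_growth (hn : Even n) {g : ℂ → ℂ} (hg : Differentiable ℂ g) {C R : ℝ}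
    (h : ∀ z, R ≤ ‖z‖ → ‖g z‖ ^ 2 * ‖z‖ ≤ C * ‖rhoX x z‖) :
    ∃ C' R' : ℝ, ∀ z, R' ≤ ‖z‖ → ‖g z‖ ^ 2 * ‖z‖ ^ 2 ≤ C' * ‖rhoX x z‖ := by
  obtain ⟨m, rfl⟩ := hn
  obtain ⟨R₁, hR₁, hρ⟩ := rho_bounds x
  have hK : ∀ z, max R R₁ ≤ ‖z‖ → ‖g z‖ ^ 2 * ‖z‖ ≤ |C| * 2 ^ (m + m) * ‖z‖ ^ (m + m) := fun z hz => by
    refine (h z ((le_max_left _ _).trans hz)).trans ?_
    rw [mul_assoc, ← mul_pow]
    exact mul_le_mul (le_abs_self C) (hρ z ((le_max_right _ _).trans hz)).2 (norm_nonneg _) (abs_nonneg _)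
  set K := |C| * 2 ^ (m + m) with hKd
  have hM : 0 < max R R₁ := lt_max_of_lt_right hR₁
  have hT : Tendsto (fun w : ℂ => w ^ m * g w⁻¹) (𝓝[≠] 0) (𝓝 0) := by
    refine squeeze_zero_norm' (a := fun w => √(K * ‖w‖)) ?_ ?_
    · filter_upwards [self_mem_nhdsWithin, mem_nhdsWithin_of_mem_nhds (ball_mem_nhds (0 : ℂ) (inv_pos.2 hM))]
        with w hw hw'
      have h0 : 0 < ‖w‖ := norm_pos_iff.2 hw
      have h1 := hK w⁻¹ (by rw [norm_inv]; exact (le_inv_comm₀ hM h0).2 (mem_ball_zero_iff.1 hw').le)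
      refine Real.le_sqrt_of_sq_le ?_
      rw [norm_inv, inv_pow, ← div_eq_mul_inv, ← div_eq_mul_inv, div_le_div_iff₀ h0 (by positivity)] at h1
      rw [norm_mul, norm_pow, mul_pow, ← pow_mul, mul_two, mul_comm]
      exact h1
    · have : Continuous fun w : ℂ => √(K * ‖w‖) := by fun_prop
      simpa using (this.tendsto 0).mono_left nhdsWithin_le_nhds
  have hA : AnalyticAt ℂ (Function.update (fun w : ℂ => w ^ m * g w⁻¹) 0 0) 0 := by
    refine Complex.analyticAt_of_differentiable_on_punctured_nhds_of_continuousAt ?_ (continuousAt_update_same.2 hT)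
    filter_upwards [self_mem_nhdsWithin] with w hw
    have h1 : DifferentiableAt ℂ (fun w : ℂ => w ^ m * g w⁻¹) w :=
      (differentiableAt_id.pow m).mul ((hg _).comp w (differentiableAt_inv hw))
    refine h1.congr_of_eventuallyEq ?_
    filter_upwards [isOpen_compl_singleton.mem_nhds hw] with v hv using Function.update_of_ne hv _ _
  obtain ⟨c, hc⟩ := hA.differentiableAt.isBigO_sub.bound
  obtain ⟨δ, hδ, hc⟩ := Metric.eventually_nhds_iff.1 hc
  refine ⟨c ^ 2 * 2 ^ (m + m), max R₁ (δ⁻¹ + 1), fun z hz => ?_⟩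
  have h0 : 0 < ‖z‖ := hR₁.trans_le ((le_max_left _ _).trans hz)
  have h1 := hc (y := z⁻¹) (by
    rw [dist_zero_right, norm_inv]
    exact (inv_lt_comm₀ h0 hδ).2 (by linarith [(le_max_right _ _).trans hz]))
  rw [Function.update_of_ne (inv_ne_zero (norm_pos_iff.1 h0)), Function.update_self, sub_zero, sub_zero, inv_inv, norm_mul,
    norm_pow, norm_inv, inv_pow, mul_comm, ← div_eq_mul_inv, ← div_eq_mul_inv, div_le_div_iff₀ (by positivity) h0] at h1
  have h2 := pow_le_pow_left₀ (by positivity) h1 2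
  have h3 := (hρ z ((le_max_left _ _).trans hz)).1
  rw [div_pow, div_le_iff₀ (by positivity)] at h3
  rw [mul_pow, mul_pow, ← pow_mul, mul_two] at h2
  refine h2.trans ?_
  rw [mul_assoc, mul_comm (2 ^ (m + m) : ℝ)]
  exact mul_le_mul_of_nonneg_left h3 (sq_nonneg c)

theorem res_zero (hx : Function.Injective x) {N : ℂ → ℂ} (hN : Differentiable ℂ N) {K R : ℝ}
    (h : ∀ z, R ≤ ‖z‖ → ‖N z‖ * ‖z‖ ^ 2 ≤ K * ‖rhoX x z‖) :
    ∑ i, N (x i) / ∏ k ∈ Finset.univ.erase i, (x i - x k) = 0 := by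
  obtain ⟨B, hB⟩ := Finite.exists_le fun i => ‖x i‖
  refine norm_le_zero_iff.1 (ge_of_tendsto (x := atTop) (f := fun r : ℝ => K / r)
    (tendsto_const_nhds.div_atTop tendsto_id) ?_)
  filter_upwards [eventually_gt_atTop 0, eventually_gt_atTop B, eventually_ge_atTop R] with r h0 h1 h2
  have hxr : ∀ i, ‖x i‖ < r := fun i => (hB i).trans_lt h1
  have a1 := circleIntegral.norm_integral_le_of_norm_le_const (f := fun z => N z / rhoX x z) (c := 0) (C := K / r ^ 2)
    h0.le fun z hz => by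
      have hz' : ‖z‖ = r := by simpa using hz
      have b1 : rhoX x z ≠ 0 := Finset.prod_ne_zero_iff.2 fun i _ => sub_ne_zero.2 fun e => (hxr i).ne (by rw [← e, hz'])
      rw [norm_div, div_le_div_iff₀ (norm_pos_iff.2 b1) (by positivity), ← hz']
      exact h z (hz' ▸ h2)
  rw [circle_res hx h0 hxr hN.differentiableOn] at a1
  simp only [norm_mul, Complex.norm_I, Complex.norm_real, Real.norm_eq_abs, abs_of_pos Real.pi_pos, mul_one,
    Complex.norm_ofNat] at a1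
  refine le_of_mul_le_mul_left (a1.trans_eq ?_) (by positivity : 0 < 2 * Real.pi)
  field_simp

/-- `circle_res` for `g ^ 2` on large circles (`circleIntegral.norm_integral_le_of_norm_le_const`) gives `∑ cSq = 0`,
so `g (x i) = 0` for all `i`; then `circle_res` for the nodes `Fin.cons z₀ x` gives `g z₀ ^ 2 / ρ z₀ = 0`. -/
theorem plane_zero (hn : Even n) (hx : Function.Injective x) {g : ℂ → ℂ} (hg : Differentiable ℂ g)
    (hc : ∀ i, BrOK x g i) {C R : ℝ} (h : ∀ z, R ≤ ‖z‖ → ‖g z‖ ^ 2 * ‖z‖ ≤ C * ‖rhoX x z‖) : ∀ z, g z = 0 := by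
  obtain ⟨K, R', h1⟩ := plane_growth hn hg h
  have hN : Differentiable ℂ fun z => g z ^ 2 := hg.pow 2
  have h2 := res_zero hx hN (K := K) (R := R') (by simpa using h1)
  have h3 : ∑ i, (cSq x g i).re = 0 := by
    rw [← Complex.re_sum]
    exact congrArg Complex.re h2
  have h4 : ∀ i, g (x i) = 0 := fun i => by
    have a1 := (Finset.sum_eq_zero_iff_of_nonpos fun i _ => (hc i).2).1 h3 i (Finset.mem_univ i)
    have a2 : cSq x g i = 0 := Complex.ext a1 (hc i).1
    have a3 : ∏ k ∈ Finset.univ.erase i, (x i - x k) ≠ 0 := Finset.prod_ne_zero_iff.2 fun k hk =>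
      sub_ne_zero.2 fun h => (Finset.mem_erase.1 hk).1 (hx h).symm
    simpa [cSq, a3] using a2
  intro z₀
  by_cases hz : z₀ ∈ range x
  · obtain ⟨i, rfl⟩ := hz
    exact h4 i
  have hx' : Function.Injective (Fin.cons z₀ x : Fin (n + 1) → ℂ) := Fin.cons_injective_iff.2 ⟨hz, hx⟩
  have h5 := res_zero hx' hN (K := |K|) (R := max R' (‖z₀‖ + 1)) fun z hz => by
    have a1 := h1 z ((le_max_left _ _).trans hz)
    have a2 : 1 ≤ ‖z - z₀‖ := by linarith [norm_sub_norm_le z z₀, (le_max_right _ _).trans hz]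
    have e : rhoX (Fin.cons z₀ x : Fin (n + 1) → ℂ) z = (z - z₀) * rhoX x z := by simp [rhoX, Fin.prod_univ_succ]
    rw [e, norm_mul, norm_pow]
    exact a1.trans (mul_le_mul (le_abs_self K) (le_mul_of_one_le_left (norm_nonneg _) a2) (norm_nonneg _) (abs_nonneg _))
  have a3 : ∏ k ∈ Finset.univ.erase 0, (z₀ - (Fin.cons z₀ x : Fin (n + 1) → ℂ) k) ≠ 0 :=
    Finset.prod_ne_zero_iff.2 fun k hk => sub_ne_zero.2 fun h => (Finset.mem_erase.1 hk).1 (hx' h.symm)
  simpa [Fin.sum_univ_succ, h4, a3] using h5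

/-- the potential of an RH solution is harmonic off the special points -/
theorem gd_of_pot {D Y : Set ℂ} {g : ℂ → ℂ} (hg : DifferentiableOn ℂ g (D \ Y)) {h : ℂ → ℝ}
    (hh : ∀ z ∈ D \ Y, (∀ i, z ≠ x i) → HasFDerivAt h (reM (-(g z ^ 2 / rhoX x z))) z) :
    Gd (D \ (Y ∪ range x)) h fun z => -(g z ^ 2 / rhoX x z) := by
  have hsub : D \ (Y ∪ range x) ⊆ D \ Y := fun z hz => ⟨hz.1, fun h => hz.2 (Or.inl h)⟩
  have hne : ∀ z ∈ D \ (Y ∪ range x), ∀ i, z ≠ x i := fun z hz i e => hz.2 (Or.inr ⟨i, e.symm⟩)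
  refine ⟨(((hg.mono hsub).pow 2).div (differentiable_rhoX x).differentiableOn fun z hz =>
    Finset.prod_ne_zero_iff.2 fun i _ => sub_ne_zero.2 (hne z hz i)).neg, fun z hz => hh z (hsub hz) (hne z hz)⟩

/-- `gd_of_pot`, `disc_defect` for each `g k`, `defect_sum`, `removable`, `disc_zero` -/
theorem rh_unique_disc {m : ℕ} (hx : Function.Injective x) (hxD : ∀ i, x i ∈ ball (0 : ℂ) 1) (y : ℂ)
    (hy : y ∈ ball (0 : ℂ) 1) (hyx : ∀ i, y ≠ x i) (t : Fin m → ℝ) (g : Fin m → ℂ → ℂ)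
    (hg : ∀ k, RH (ball 0 1) x {y} (g k)) (hc : ∀ i, BrOK x (fun z => ∑ k, (t k : ℂ) * g k z) i)
    (hp : Tendsto (fun z => (z - y) * ∑ k, (t k : ℂ) * g k z) (𝓝[≠] y) (𝓝 0)) :
    ∀ z ∈ ball (0 : ℂ) 1, z ≠ y → ∑ k, (t k : ℂ) * g k z = 0 := by
  have hG : DifferentiableOn ℂ (fun z => ∑ k, (t k : ℂ) * g k z) (ball 0 1 \ {y}) :=
    DifferentiableOn.fun_sum fun k _ => (hg k).hol.const_mul _
  obtain ⟨G, hG1, hG2⟩ := removable isOpen_ball hy hG hp
  obtain ⟨r₁, hr₁, h1⟩ := exists_lt_one (fun i => ‖x i‖) fun i => by simpa using hxD i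
  have hr₀ : max r₁ ‖y‖ < 1 := max_lt hr₁ (by simpa using hy)
  have hsub : Ann (max r₁ ‖y‖) ⊆ ball 0 1 \ ({y} ∪ range x) := fun z hz => by
    refine ⟨by simpa using hz.2, ?_⟩
    rintro (rfl | ⟨i, rfl⟩)
    · exact absurd hz.1 (not_lt.2 (le_max_right _ _))
    · exact absurd hz.1 (not_lt.2 ((h1 i).trans (le_max_left _ _)))
  intro z hz hzy
  rw [← hG2 z hzy]
  refine disc_zero hx (fun i => by simpa using hxD i) hG1 (fun i => ?_) (fun ε hε => ?_) z hz
  · have := hc i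
    unfold BrOK cSq at this ⊢
    rwa [hG2 _ (hyx i).symm]
  · set T := (∑ k, |t k|) ^ 2 with hT
    have hT0 : 0 ≤ T := sq_nonneg _
    have hδ : 0 < ε / (3 * (T + 1)) := by positivity
    have key : ∀ k, ∃ r < 1, ∀ z ∈ Ann r, ‖z / rhoX x z * g k z ^ 2‖ - (z / rhoX x z * g k z ^ 2).re ≤
        3 * (ε / (3 * (T + 1))) := fun k => by
      obtain ⟨h, a1, a2, a3⟩ := (hg k).pot
      obtain ⟨r, hr, b⟩ := disc_defect hr₀ ((gd_of_pot (hg k).hol a1).mono hsub) a2 a3 _ hδ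
      refine ⟨r, hr, fun z hz => ?_⟩
      obtain ⟨b1, b2⟩ := b z hz
      have e : z * -(g k z ^ 2 / rhoX x z) = -(z / rhoX x z * g k z ^ 2) := by ring
      rw [e, Complex.neg_im, abs_neg] at b1
      rw [e, Complex.neg_re] at b2
      have := Complex.norm_le_abs_re_add_abs_im (z / rhoX x z * g k z ^ 2)
      rcases abs_cases (z / rhoX x z * g k z ^ 2).re with c | c <;> linarith
    choose r hr b using key
    obtain ⟨r₂, hr₂, h2⟩ := exists_lt_one r hr
    refine ⟨max r₂ ‖y‖, max_lt hr₂ (by simpa using hy), fun z hz => ?_⟩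
    have hzy : z ≠ y := by
      rintro rfl
      exact absurd hz.1 (not_lt.2 (le_max_right _ _))
    rw [hG2 z hzy]
    refine (defect_sum t (fun k => g k z) _ (by positivity) fun k =>
      b k z (ann_sub ((h2 k).trans (le_max_left _ _)) hz)).trans ?_
    rw [← hT]
    have e : T * (3 * (ε / (3 * (T + 1)))) = ε * (T / (T + 1)) := by field_simp
    rw [e]
    exact mul_le_of_le_one_right hε.le ((div_le_one (by positivity)).2 (by linarith))

/-- `removable`, `plane_zero` -/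
theorem rh_unique_plane {m : ℕ} (hn : Even n) (hx : Function.Injective x) (y : ℂ) (hyx : ∀ i, y ≠ x i)
    (t : Fin m → ℝ) (g : Fin m → ℂ → ℂ) (hg : ∀ k, RH univ x {y} (g k))
    (hc : ∀ i, BrOK x (fun z => ∑ k, (t k : ℂ) * g k z) i)
    (hp : Tendsto (fun z => (z - y) * ∑ k, (t k : ℂ) * g k z) (𝓝[≠] y) (𝓝 0)) :
    ∀ z, z ≠ y → ∑ k, (t k : ℂ) * g k z = 0 := by
  have hG : DifferentiableOn ℂ (fun z => ∑ k, (t k : ℂ) * g k z) (univ \ {y}) :=
    DifferentiableOn.fun_sum fun k _ => (hg k).hol.const_mul _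
  obtain ⟨G, hG1, hG2⟩ := removable isOpen_univ (mem_univ y) hG hp
  choose C R hC using fun k => (hg k).inf
  obtain ⟨B, hB⟩ := Finite.exists_le R
  intro z hzy
  rw [← hG2 z hzy]
  refine plane_zero hn hx (differentiableOn_univ.1 hG1) (fun i => ?_) (C := m * ∑ k, t k ^ 2 * C k)
    (R := max B (‖y‖ + 1)) (fun z hz => ?_) z
  · have := hc i
    unfold BrOK cSq at this ⊢
    rwa [hG2 _ (hyx i).symm]
  · have hzy : z ≠ y := by
      rintro rfl
      linarith [(le_max_right _ _).trans hz]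
    rw [hG2 z hzy]
    have a1 : ‖∑ k, (t k : ℂ) * g k z‖ ^ 2 ≤ m * ∑ k, t k ^ 2 * ‖g k z‖ ^ 2 := by
      refine (pow_le_pow_left₀ (norm_nonneg _) (norm_sum_le _ _) 2).trans (sq_sum_le_card_mul_sum_sq.trans_eq ?_)
      simp [mul_pow]
    refine (mul_le_mul_of_nonneg_right a1 (norm_nonneg _)).trans ?_
    rw [mul_assoc, mul_assoc, Finset.sum_mul, Finset.sum_mul]
    refine mul_le_mul_of_nonneg_left (Finset.sum_le_sum fun k _ => ?_) (Nat.cast_nonneg _)
    rw [mul_assoc, mul_assoc]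
    exact mul_le_mul_of_nonneg_left (hC k z (mem_univ z) ((hB k).trans ((le_max_left _ _).trans hz))) (sq_nonneg _)

end Crest.Agent.R165
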